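import Mathlib

namespace Vale.Agent.P170

/-- A proper `k`-clause on the variables `Fin n`: a set of `k` literals on `k` distinct variables.
The literal `(i, true)` is `x_i` and the literal `(i, false)` is `¬ x_i`. -/
def ProperClause (k n : ℕ) : Type :=
  {C : Finset (Fin n × Bool) // C.card = k ∧ ∀ l ∈ C, ∀ l' ∈ C, l.1 = l'.1 → l = l'}

/-- The conjunction of the clauses `F 0, …, F (m-1)` is satisfiable: some assignment makes at least
one literal of every clause true. -/
def Satisfiable {k n m : ℕ} (F : Fin m → ProperClause k n) : Prop :=
  ∃ σ : Fin n → Bool, ∀ i, ∃ l ∈ (F i).1, σ l.1 = l.2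

/-- `P_{k,n}(m)`: the probability that `m` independent uniform proper `k`-clauses (sampled with
replacement) are simultaneously satisfiable, that is, the fraction of all `m`-tuples of proper
clauses that are satisfiable. -/
noncomputable def satProb (k n m : ℕ) : ℝ :=
  (Nat.card {F : Fin m → ProperClause k n // Satisfiable F} : ℝ) /
    (Nat.card (Fin m → ProperClause k n) : ℝ)

end Vale.Agent.P170
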