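import Vale.Agent.P170.Sat

/-! Sparse formulas are satisfiable (Hall's theorem and a union bound). -/

namespace Vale.Agent.P170

open Finset BigOperators

lemma expect_prod {ι α : Type*} [Fintype ι] [DecidableEq ι] [Fintype α] (g : ι → α → ℝ) :
    𝔼 F : ι → α, ∏ i, g i (F i) = ∏ i, 𝔼 a, g i a := by
  simp_rw [Fintype.expect_eq_sum_div_card]
  rw [prod_div_distrib, prod_univ_sum, Fintype.piFinset_univ]
  simp

lemma expect_inside (k : ℕ) {n : ℕ} (B : Finset (Fin n)) :
    𝔼 c : Fin k → Fin n × Bool, (∏ l, if (c l).1 ∈ B then (1:ℝ) else 0) = (B.card / n) ^ k := by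
  rw [expect_prod (fun (_ : Fin k) (a : Fin n × Bool) => if a.1 ∈ B then (1:ℝ) else 0)]
  have : 𝔼 a : Fin n × Bool, (if a.1 ∈ B then (1:ℝ) else 0) = B.card / n := by
    rw [← univ_product_univ, expect_product]
    rw [expect_congr rfl (g := fun i => if i ∈ B then (1:ℝ) else 0)
      (fun i _ => Fintype.expect_const (ι := Bool) _), Fintype.expect_eq_sum_div_card]
    simp
  rw [this, prod_const, card_univ, Fintype.card_fin]

lemma unsat_le {k n m : ℕ} (hmn : m ≤ n) (F : Fin m → Fin k → Fin n × Bool) :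
    1 - u (Set.univ ∩ ⋂ i, cl id k (F i)) ≤
      ∑ j ∈ range m, ∑ J ∈ powersetCard (j + 1) (univ : Finset (Fin m)),
        ∑ B ∈ powersetCard (j + 1) (univ : Finset (Fin n)),
          ∏ i, if i ∈ J then (∏ l, if (F i l).1 ∈ B then (1:ℝ) else 0) else 1 := by
  have hnn : ∀ (J : Finset (Fin m)) (B : Finset (Fin n)),
      0 ≤ ∏ i, if i ∈ J then (∏ l, if (F i l).1 ∈ B then (1:ℝ) else 0) else 1 := by
    intro J B
    refine prod_nonneg fun i _ => ?_
    split_ifs
    · exact prod_nonneg fun l _ => by split_ifs <;> norm_num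
    · norm_num
  by_cases hall : ∀ J : Finset (Fin m),
      J.card ≤ (J.biUnion fun i => univ.image fun l => (F i l).1).card
  · obtain ⟨f, hf, hf'⟩ := (all_card_le_biUnion_card_iff_exists_injective _).1 hall
    simp only [mem_image, mem_univ, true_and] at hf'
    choose l hl using hf'
    have hne : (Set.univ ∩ ⋂ i, cl id k (F i)).Nonempty := by
      refine ⟨Function.extend f (fun i => (F i (l i)).2) (fun _ => true), trivial, ?_⟩
      simp only [Set.mem_iInter]
      intro i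
      refine ⟨l i, ?_⟩
      simp only [id]
      rw [hl i, hf.extend_apply]
    rw [u_of_nonempty hne, sub_self]
    exact sum_nonneg fun _ _ => sum_nonneg fun _ _ => sum_nonneg fun _ _ => hnn _ _
  · push Not at hall
    obtain ⟨J, hJ⟩ := hall
    have hJm : J.card ≤ m := by simpa using card_le_univ J
    obtain ⟨B, hB, hBc⟩ := exists_superset_card_eq hJ.le (by simpa using hJm.trans hmn)
    have h1 : (∏ i, if i ∈ J then (∏ l, if (F i l).1 ∈ B then (1:ℝ) else 0) else 1) = 1 := by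
      refine prod_eq_one fun i _ => ?_
      split_ifs with hi
      · refine prod_eq_one fun l _ => if_pos (hB ?_)
        simp only [mem_biUnion, mem_image, mem_univ, true_and]
        exact ⟨i, hi, l, rfl⟩
      · rfl
    have hj : J.card - 1 + 1 = J.card := by omega
    calc 1 - u (Set.univ ∩ ⋂ i, cl id k (F i)) ≤ 1 := by linarith [u_nonneg (Set.univ ∩ ⋂ i, cl id k (F i))]
      _ = _ := h1.symm
      _ ≤ ∑ B ∈ powersetCard (J.card - 1 + 1) (univ : Finset (Fin n)),
          ∏ i, if i ∈ J then (∏ l, if (F i l).1 ∈ B then (1:ℝ) else 0) else 1 :=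
        single_le_sum (f := fun B : Finset (Fin n) =>
          ∏ i, if i ∈ J then (∏ l, if (F i l).1 ∈ B then (1:ℝ) else 0) else 1)
          (fun B _ => hnn J B) (by simp [hj, hBc])
      _ ≤ ∑ J' ∈ powersetCard (J.card - 1 + 1) (univ : Finset (Fin m)),
          ∑ B ∈ powersetCard (J.card - 1 + 1) (univ : Finset (Fin n)),
          ∏ i, if i ∈ J' then (∏ l, if (F i l).1 ∈ B then (1:ℝ) else 0) else 1 :=
        single_le_sum (f := fun J' : Finset (Fin m) =>
          ∑ B ∈ powersetCard (J.card - 1 + 1) (univ : Finset (Fin n)),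
          ∏ i, if i ∈ J' then (∏ l, if (F i l).1 ∈ B then (1:ℝ) else 0) else 1)
          (fun J' _ => sum_nonneg fun B _ => hnn J' B) (by simp [hj])
      _ ≤ _ := single_le_sum (f := fun j => ∑ J' ∈ powersetCard (j + 1) (univ : Finset (Fin m)),
          ∑ B ∈ powersetCard (j + 1) (univ : Finset (Fin n)),
          ∏ i, if i ∈ J' then (∏ l, if (F i l).1 ∈ B then (1:ℝ) else 0) else 1)
          (fun j _ => sum_nonneg fun J' _ => sum_nonneg fun B _ => hnn J' B)
          (by rw [mem_range]; omega)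

lemma term_le {k n m j : ℕ} (hk : 2 ≤ k) (hn : 1 ≤ n) (hm : 24 * m ≤ n) (hj : j ≤ m) :
    (m.choose j : ℝ) * (n.choose j * (((j:ℝ) / n) ^ k) ^ j) ≤ (1 / 3) ^ j := by
  have hn' : (1:ℝ) ≤ n := by exact_mod_cast hn
  have hm' : 24 * (m:ℝ) ≤ n := by exact_mod_cast hm
  have hj' : (j:ℝ) ≤ m := by exact_mod_cast hj
  have hj0 : (0:ℝ) ≤ j := by positivity
  have h1 : (m.choose j : ℝ) ≤ m ^ j / j.factorial := Nat.choose_le_pow_div j m
  have h2 : (n.choose j : ℝ) ≤ n ^ j / j.factorial := Nat.choose_le_pow_div j n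
  have h3 : ((j:ℝ) / n) ^ k ≤ ((j:ℝ) / n) ^ 2 :=
    pow_le_pow_of_le_one (by positivity) (by rw [div_le_one (by linarith)]; linarith) hk
  have h4 : (((j:ℝ) / n) ^ k) ^ j ≤ (((j:ℝ) / n) ^ 2) ^ j := pow_le_pow_left₀ (by positivity) h3 _
  have h5 : (j:ℝ) ^ j / j.factorial ≤ Real.exp 1 ^ j := by
    rw [← Real.exp_nat_mul, mul_one]
    exact Real.pow_div_factorial_le_exp _ hj0 j
  have h6 : Real.exp 1 ^ 2 ≤ 8 := by
    have := Real.exp_one_lt_d9
    have h0 := Real.exp_pos 1
    nlinarith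
  have h7 : (m:ℝ) / n ≤ 1 / 24 := by rw [div_le_div_iff₀ (by linarith) (by norm_num)]; linarith
  calc (m.choose j : ℝ) * (n.choose j * (((j:ℝ) / n) ^ k) ^ j)
      ≤ (m ^ j / j.factorial) * ((n ^ j / j.factorial) * (((j:ℝ) / n) ^ 2) ^ j) := by gcongr
    _ = ((m:ℝ) / n) ^ j * ((j:ℝ) ^ j / j.factorial) ^ 2 := by
      rw [← pow_mul, div_pow, div_pow, div_pow, ← pow_mul, mul_comm 2 j, pow_mul (n:ℝ)]
      field_simp
    _ ≤ (1 / 24) ^ j * (Real.exp 1 ^ j) ^ 2 := by gcongr
    _ = (1 / 24 * Real.exp 1 ^ 2) ^ j := by rw [mul_pow, ← pow_mul, ← pow_mul, mul_comm j 2]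
    _ ≤ (1 / 3) ^ j := pow_le_pow_left₀ (by positivity) (by linarith) _

lemma geom_third (m : ℕ) : ∑ j ∈ range m, (1 / 3 : ℝ) ^ (j + 1) = 1 / 2 - (1 / 3) ^ m / 2 := by
  induction m with
  | zero => simp
  | succ m ih => rw [sum_range_succ, ih]; ring

lemma hall_bound {k n m : ℕ} (hk : 2 ≤ k) (hn : 1 ≤ n) (hm : 24 * m ≤ n) :
    1 / 2 ≤ qq k n 1 m := by
  have : Nonempty (Fin n) := ⟨⟨0, hn⟩⟩
  unfold qq
  rw [lazy_one, op_pow_apply]
  have h1 := expect_le_expect (s := univ) fun F _ => unsat_le (k := k) (n := n) (m := m) (by omega) F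
  rw [expect_sub_distrib, Fintype.expect_const, expect_sum_comm] at h1
  have h2 : ∀ j ∈ range m, 𝔼 F : Fin m → Fin k → Fin n × Bool,
      ∑ J ∈ powersetCard (j + 1) (univ : Finset (Fin m)),
        ∑ B ∈ powersetCard (j + 1) (univ : Finset (Fin n)),
          (∏ i, if i ∈ J then (∏ l, if (F i l).1 ∈ B then (1:ℝ) else 0) else 1) ≤
      (1 / 3) ^ (j + 1) := by
    intro j hj
    rw [mem_range] at hj
    refine le_trans (le_of_eq ?_) (term_le (j := j + 1) hk hn hm hj)
    rw [expect_sum_comm, sum_congr rfl (g := fun _ => (n.choose (j + 1) : ℝ) *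
      ((((j + 1 : ℕ):ℝ) / n) ^ k) ^ (j + 1))]
    · simp
    intro J hJ
    rw [expect_sum_comm, sum_congr rfl (g := fun _ => ((((j + 1 : ℕ):ℝ) / n) ^ k) ^ (j + 1))]
    · simp
    intro B hB
    rw [mem_powersetCard] at hJ hB
    rw [expect_prod (fun i (c : Fin k → Fin n × Bool) =>
      if i ∈ J then (∏ l, if (c l).1 ∈ B then (1:ℝ) else 0) else 1)]
    rw [prod_congr rfl (g := fun i => if i ∈ J then (((j + 1 : ℕ):ℝ) / n) ^ k else 1)]
    · rw [prod_ite_mem, univ_inter, prod_const, hJ.2]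
    intro i _
    split_ifs
    · rw [expect_inside, hB.2]
    · simp
  have h3 := sum_le_sum h2
  rw [geom_third] at h3
  have h4 : (0:ℝ) ≤ (1 / 3) ^ m / 2 := by positivity
  linarith

end Vale.Agent.P170
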