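import Vale.Agent.P170.Hall

/-! Convergence of the normalized expected lifetime, and the threshold for independent literals. -/

namespace Vale.Agent.P170

open Filter Topology

noncomputable def rt (n : ℕ) : ℝ := (n : ℝ) ^ ((6 : ℕ) : ℝ)⁻¹

lemma rt_pow (n : ℕ) : rt n ^ 6 = n := Real.rpow_inv_natCast_pow (by positivity) (by norm_num)

lemma rt_nonneg (n : ℕ) : 0 ≤ rt n := by unfold rt; positivity

lemma le_rt {x : ℝ} {n : ℕ} (h : x ^ 6 ≤ n) : x ≤ rt n := by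
  rw [← rt_pow] at h
  exact le_of_pow_le_pow_left₀ (by norm_num) (rt_nonneg n) h

lemma one_le_rt {n : ℕ} (h : 1 ≤ n) : 1 ≤ rt n := le_rt (by simpa using h)

lemma rt_mono {n m : ℕ} (h : n ≤ m) : rt n ≤ rt m := le_rt (by rw [rt_pow]; exact_mod_cast h)

lemma tendsto_rt : Tendsto rt atTop atTop :=
  (tendsto_rpow_atTop (by norm_num)).comp tendsto_natCast_atTop_atTop

lemma merge {r : ℕ → ℝ} {C : ℝ} (hC : 0 ≤ C)
    (S1 : ∀ n, 3 ≤ n → r n - C / rt n ≤ r (n + 1))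
    (S2 : ∀ n₁ n₂, 3 ≤ n₁ → 3 ≤ n₂ → n₁ + n₂ ≤ 4 * n₁ → n₁ + n₂ ≤ 4 * n₂ →
      min (r n₁) (r n₂) - C / rt (n₁ + n₂) ≤ r (n₁ + n₂))
    {n₀ : ℕ} (h₀ : 3 ≤ n₀) (p : ℕ) : 1 ≤ p → ∀ n, p * n₀ ≤ n → n ≤ p * (n₀ + 1) →
      r n₀ - 26 * C / rt n₀ + 25 * C / rt n ≤ r n := by
  induction p using Nat.strong_induction_on with
  | _ p ih =>
    intro hp n h1 h2
    have hr₀ : 0 < rt n₀ := lt_of_lt_of_le one_pos (one_le_rt (by omega))
    rcases hp.eq_or_lt with rfl | hp2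
    · have h3 : 25 * C / rt n ≤ 25 * C / rt n₀ :=
        div_le_div_of_nonneg_left (by positivity) hr₀ (rt_mono (by omega))
      have h4 : 26 * C / rt n₀ = 25 * C / rt n₀ + C / rt n₀ := by ring
      have h5 : 0 ≤ C / rt n₀ := by positivity
      rcases (show n = n₀ ∨ n = n₀ + 1 by omega) with rfl | rfl
      · linarith
      · linarith [S1 n₀ h₀]
    · obtain ⟨p₁, p₂, hp₁, hp₂, rfl, e1, e2⟩ : ∃ p₁ p₂, 1 ≤ p₁ ∧ 1 ≤ p₂ ∧ p = p₁ + p₂ ∧
          p₁ + p₂ ≤ 3 * p₁ ∧ p₁ + p₂ ≤ 3 * p₂ := ⟨p / 2, p - p / 2, by omega, by omega, by omega,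
            by omega, by omega⟩
      obtain ⟨n₁, n₂, rfl, a1, a2, b1, b2⟩ : ∃ n₁ n₂, n = n₁ + n₂ ∧ p₁ * n₀ ≤ n₁ ∧
          n₁ ≤ p₁ * (n₀ + 1) ∧ p₂ * n₀ ≤ n₂ ∧ n₂ ≤ p₂ * (n₀ + 1) := by
        rw [add_mul] at h1 h2
        rw [mul_add, mul_add] at h2
        rcases le_total n (p₁ * n₀ + p₂ * (n₀ + 1)) with h | h
        · refine ⟨p₁ * n₀, n - p₁ * n₀, by omega, le_rfl, by rw [mul_add]; omega, by omega,
            by omega⟩
        · rw [mul_add] at h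
          refine ⟨n - p₂ * (n₀ + 1), p₂ * (n₀ + 1), ?_, ?_, ?_, ?_, le_rfl⟩ <;>
            simp only [mul_add] <;> omega
      have key : ∀ q m, 1 ≤ q → p₁ + p₂ ≤ 3 * q → q * n₀ ≤ m → n₁ + n₂ ≤ 4 * m := by
        intro q m _ hq hm
        have : (p₁ + p₂) * (n₀ + 1) ≤ 3 * q * (n₀ + 1) := Nat.mul_le_mul_right _ hq
        nlinarith
      have c1 := key p₁ n₁ hp₁ e1 a1
      have c2 := key p₂ n₂ hp₂ e2 b1
      have d1 : 3 ≤ n₁ := by nlinarith
      have d2 : 3 ≤ n₂ := by nlinarith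
      have i1 := ih p₁ (by omega) hp₁ n₁ a1 a2
      have i2 := ih p₂ (by omega) hp₂ n₂ b1 b2
      have gain : ∀ m, 3 ≤ m → 4 * m ≤ 3 * (n₁ + n₂) →
          26 * C / rt (n₁ + n₂) ≤ 25 * C / rt m := by
        intro m hm h
        have hr : 0 < rt m := lt_of_lt_of_le one_pos (one_le_rt (by omega))
        have h' : 4 * (m:ℝ) ≤ 3 * ((n₁ + n₂ : ℕ) : ℝ) := by exact_mod_cast h
        have : 26 / 25 * rt m ≤ rt (n₁ + n₂) := by
          apply le_rt
          rw [mul_pow, rt_pow]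
          have : (0:ℝ) ≤ m := by positivity
          nlinarith
        rw [div_le_div_iff₀ (by linarith) hr]
        nlinarith
      have g1 := gain n₁ d1 (by omega)
      have g2 := gain n₂ d2 (by omega)
      have s := S2 n₁ n₂ d1 d2 c1 c2
      have h4 : 26 * C / rt (n₁ + n₂) = 25 * C / rt (n₁ + n₂) + C / rt (n₁ + n₂) := by ring
      have : r n₀ - 26 * C / rt n₀ + 26 * C / rt (n₁ + n₂) ≤ min (r n₁) (r n₂) :=
        le_min (by linarith) (by linarith)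
      linarith

lemma conv {r : ℕ → ℝ} {C M : ℝ} (hC : 0 ≤ C) (h0 : ∀ n, 0 ≤ r n) (hM : ∀ n, r n ≤ M)
    (S1 : ∀ n, 3 ≤ n → r n - C / rt n ≤ r (n + 1))
    (S2 : ∀ n₁ n₂, 3 ≤ n₁ → 3 ≤ n₂ → n₁ + n₂ ≤ 4 * n₁ → n₁ + n₂ ≤ 4 * n₂ →
      min (r n₁) (r n₂) - C / rt (n₁ + n₂) ≤ r (n₁ + n₂)) :
    ∃ α, Tendsto r atTop (𝓝 α) := by
  have hb1 : IsBoundedUnder (· ≤ ·) atTop r := isBoundedUnder_of ⟨M, hM⟩
  have hb2 : IsBoundedUnder (· ≥ ·) atTop r := isBoundedUnder_of ⟨0, h0⟩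
  refine ⟨limsup r atTop, tendsto_order.2 ⟨fun b hb => ?_, fun b hb =>
    eventually_lt_of_limsup_lt hb hb1⟩⟩
  obtain ⟨b', hb', hb''⟩ := exists_between hb
  have hf : ∃ᶠ n in atTop, b' < r n := frequently_lt_of_lt_limsup hb2.isCoboundedUnder_le hb''
  have ht : Tendsto (fun n => 26 * C / rt n) atTop (𝓝 0) := tendsto_rt.const_div_atTop _
  have he : ∀ᶠ n in atTop, 26 * C / rt n < b' - b := ht.eventually (gt_mem_nhds (by linarith))
  obtain ⟨n₀, h1, h2, h3⟩ := (hf.and_eventually (he.and (eventually_ge_atTop 3))).exists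
  filter_upwards [eventually_ge_atTop (n₀ * n₀)] with n hn
  have hp : n₀ ≤ n / n₀ := (Nat.le_div_iff_mul_le (by omega)).2 hn
  have e1 := Nat.div_add_mod n n₀
  have e2 := Nat.mod_lt n (show 0 < n₀ by omega)
  have := merge hC S1 S2 h3 (n / n₀) (by omega) n (Nat.div_mul_le_self _ _)
    (by rw [mul_add, mul_comm]; omega)
  have h4 : 0 ≤ 25 * C / rt n := div_nonneg (by positivity) (rt_nonneg n)
  linarith

noncomputable def CW (k : ℕ) : ℝ := 2 * 2 ^ (k + 2) * C1 k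
noncomputable def DD (k : ℕ) : ℝ := 8 * (2 ^ (k + 2) * CW k + 1)

lemma C1_nonneg (k : ℕ) : 0 ≤ C1 k := by unfold C1; positivity
lemma CW_nonneg (k : ℕ) : 0 ≤ CW k := by unfold CW; have := C1_nonneg k; positivity
lemma DD_pos (k : ℕ) : 0 < DD k := by unfold DD; have := CW_nonneg k; positivity
lemma DD_sq (k : ℕ) : 64 * (2 ^ (k + 2) * CW k) ≤ DD k ^ 2 := by
  unfold DD
  have : 0 ≤ 2 ^ (k + 2) * CW k := by have := CW_nonneg k; positivity
  nlinarith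

lemma aa_nonneg (k : ℕ) {n : ℕ} (hn : 1 ≤ n) : 0 ≤ aa k n := life_nonneg k hn _
lemma aa_le (k : ℕ) {n : ℕ} (hn : 1 ≤ n) : aa k n ≤ 2 ^ (k + 2) * n := life_le k hn _

lemma aa_ge_of_half {k : ℕ} (hk : 3 ≤ k) {n : ℕ} (hn : 2 ≤ n) {m : ℕ}
    (hm : (m:ℝ) ≤ 2 ^ (k + 2) * n) (hq : 1 / 2 ≤ qq k n 1 m) :
    m - DD k * rt n ^ 5 ≤ aa k n := by
  have ht := one_le_rt (n := n) (by omega)
  have hD := DD_pos k
  by_contra hcon
  push Not at hcon
  have h0 : 0 < DD k * rt n ^ 5 := by positivity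
  have h1 := (tails hk hn ht (rt_pow n)).2 m (by linarith)
  have h2 : (DD k * rt n ^ 5) ^ 2 < (m - aa k n) ^ 2 := by
    apply pow_lt_pow_left₀ (by linarith) h0.le (by norm_num)
  have hW := CW_nonneg k
  have h3 : (m:ℝ) * (CW k * rt n ^ 4) ≤ 2 ^ (k + 2) * rt n ^ 6 * (CW k * rt n ^ 4) := by
    rw [rt_pow]
    exact mul_le_mul_of_nonneg_right hm (by positivity)
  have h4 := mul_le_mul_of_nonneg_right (DD_sq k) (show 0 ≤ rt n ^ 10 by positivity)
  have h5 := mul_le_mul_of_nonneg_right hq (sq_nonneg (m - aa k n))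
  have h6 : 0 ≤ 2 ^ (k + 2) * CW k * rt n ^ 10 := by positivity
  change _ ≤ m * (CW k * rt n ^ 4) at h1
  nlinarith

lemma part_bound {k : ℕ} (hk : 3 ≤ k) {n₁ N : ℕ} (hn : 2 ≤ n₁) (h1 : n₁ ≤ N) (h4 : N ≤ 4 * n₁)
    {ρ : ℝ} (hρ : ρ ≤ aa k n₁ / n₁) {m : ℕ} (hm : (m:ℝ) ≤ N * ρ - DD k * rt N ^ 5) :
    3 / 4 ≤ qq k n₁ (n₁ / N) m := by
  have ht1 := one_le_rt (n := n₁) (by omega)
  have ht := rt_mono h1
  have hD := DD_pos k
  have hW := CW_nonneg k
  have hn' : (2:ℝ) ≤ n₁ := by exact_mod_cast hn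
  have h1' : (n₁:ℝ) ≤ N := by exact_mod_cast h1
  have h4' : (N:ℝ) ≤ 4 * n₁ := by exact_mod_cast h4
  have hN : (0:ℝ) < N := by linarith
  have hl1 : (n₁:ℝ) / N ≤ 1 := by rw [div_le_one hN]; exact h1'
  have hl4 : 1 / 4 ≤ (n₁:ℝ) / N := by rw [le_div_iff₀ hN]; linarith
  have h0 : 0 < DD k * rt N ^ 5 := by have : 0 < rt N := by linarith
                                      positivity
  rw [le_div_iff₀ (by linarith)] at hρ
  have ha := aa_le k (n := n₁) (by omega)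
  have hρ' : ρ ≤ 2 ^ (k + 2) := le_of_mul_le_mul_right (hρ.trans ha) (by linarith)
  have e1 : (n₁:ℝ) / N * m ≤ aa k n₁ - DD k * rt N ^ 5 / 4 := by
    have := mul_le_mul_of_nonneg_left hm (show 0 ≤ (n₁:ℝ) / N by positivity)
    have e : (n₁:ℝ) / N * (N * ρ - DD k * rt N ^ 5) = ρ * n₁ - n₁ / N * (DD k * rt N ^ 5) := by
      field_simp
    nlinarith
  have h2 := (tails hk hn ht1 (rt_pow n₁)).1 (n₁ / N) m (by positivity) hl1 (by linarith)
  change _ ≤ m * (CW k * rt n₁ ^ 4) at h2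
  have h3 : (m:ℝ) * (CW k * rt n₁ ^ 4) ≤ 2 ^ (k + 2) * rt N ^ 6 * (CW k * rt N ^ 4) := by
    rw [rt_pow]
    have : (m:ℝ) ≤ 2 ^ (k + 2) * N := by nlinarith
    gcongr
  have h5 : (DD k * rt N ^ 5 / 4) ^ 2 ≤ (aa k n₁ - n₁ / N * m) ^ 2 :=
    pow_le_pow_left₀ (by positivity) (by linarith) _
  by_contra hcon
  push Not at hcon
  have h6 := mul_le_mul_of_nonneg_right (DD_sq k) (show 0 ≤ rt N ^ 10 by
    have := rt_nonneg N
    positivity)
  have h7 : 1 / 4 * (DD k * rt N ^ 5 / 4) ^ 2 < (1 - qq k n₁ (n₁ / N) m) *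
      (aa k n₁ - n₁ / N * m) ^ 2 :=
    mul_lt_mul (by linarith) h5 (by positivity) (by linarith)
  nlinarith

lemma split_bound {k : ℕ} (hk : 3 ≤ k) (n₁ n₂ : ℕ) (h₁ : 3 ≤ n₁) (h₂ : 3 ≤ n₂)
    (h₃ : n₁ + n₂ ≤ 4 * n₁) (h₄ : n₁ + n₂ ≤ 4 * n₂) :
    min (aa k n₁ / n₁) (aa k n₂ / n₂) - (2 * DD k + 1) / rt (n₁ + n₂) ≤
      aa k (n₁ + n₂) / (n₁ + n₂ : ℕ) := by
  set ρ := min (aa k n₁ / n₁) (aa k n₂ / n₂) with hρ
  set N := n₁ + n₂ with hN
  have ht := one_le_rt (n := N) (by omega)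
  have hD := DD_pos k
  have hp := rt_pow N
  set t := rt N
  have ht0 : 0 < t := by linarith
  have hN0 : (0:ℝ) < N := by rw [← hp]; positivity
  have ha := aa_nonneg k (n := N) (by omega)
  have e : (ρ - (2 * DD k + 1) / t) * N = N * ρ - (2 * DD k + 1) * t ^ 5 := by
    rw [← hp]; field_simp
  rw [le_div_iff₀ hN0, e]
  have h5 : 1 ≤ t ^ 5 := one_le_pow₀ ht
  have h0 : 0 < DD k * t ^ 5 := by positivity
  rcases le_total (N * ρ - DD k * t ^ 5) 0 with h | h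
  · linarith
  · have m1 := Nat.floor_le h
    have m2 := Nat.lt_floor_add_one (N * ρ - DD k * t ^ 5)
    set m := ⌊N * ρ - DD k * t ^ 5⌋₊
    have q1 := part_bound hk (n₁ := n₁) (N := N) (by omega) (by omega) h₃ (min_le_left _ _) m1
    have q2 := part_bound hk (n₁ := n₂) (N := N) (by omega) (by omega) h₄ (min_le_right _ _) m1
    have q3 := interp k (n₁ := n₁) (n₂ := n₂) (by omega) (by omega) m
    have hc : ((N:ℕ):ℝ) = n₁ + n₂ := by rw [hN]; push_cast; ring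
    rw [hc] at q1 q2
    have hρ' : ρ ≤ 2 ^ (k + 2) := by
      refine (min_le_left _ _).trans ?_
      rw [div_le_iff₀ (by exact_mod_cast (show 0 < n₁ by omega))]
      exact aa_le k (by omega)
    have := aa_ge_of_half hk (n := N) (by omega) (m := m) (by nlinarith) (by linarith)
    linarith

lemma succ_bound {k : ℕ} (hk : 3 ≤ k) (n : ℕ) (hn : 3 ≤ n) :
    aa k n / n - (2 ^ (k + 2) + C1 k) / rt n ≤ aa k (n + 1) / (n + 1 : ℕ) := by
  have ht1 := one_le_rt (n := n) (by omega)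
  have ht2 := rt_mono (Nat.le_succ n)
  have hp := rt_pow (n + 1)
  have h := aa_succ_ge hk (n := n) (by omega) (ht1.trans ht2) (by rw [hp]; push_cast; ring)
  have hn' : (3:ℝ) ≤ n := by exact_mod_cast hn
  have ha := aa_le k (n := n) (by omega)
  have hC := C1_nonneg k
  set t := rt (n + 1)
  have ht : 1 ≤ t := ht1.trans ht2
  have h1 : (2 ^ (k + 2) + C1 k) / t ≤ (2 ^ (k + 2) + C1 k) / rt n :=
    div_le_div_of_nonneg_left (by positivity) (by linarith) ht2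
  have h2 : aa k n / n ≤ 2 ^ (k + 2) := by rw [div_le_iff₀ (by linarith)]; exact ha
  have h3 : aa k n / n * (n + 1 : ℕ) = aa k n + aa k n / n := by push_cast; field_simp
  have h4 : (2 ^ (k + 2) + C1 k) / t * (n + 1 : ℕ) = (2 ^ (k + 2) + C1 k) * t ^ 5 := by
    rw [← hp]; field_simp
  have h5 : 1 ≤ t ^ 5 := one_le_pow₀ ht
  have h6 : t ^ 2 ≤ t ^ 5 := pow_le_pow_right₀ ht (by norm_num)
  refine le_trans (sub_le_sub_left h1 _) ?_
  rw [le_div_iff₀ (by positivity), sub_mul, h3, h4]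
  have h7 : (0:ℝ) < 2 ^ (k + 2) := by positivity
  nlinarith

lemma exists_limit {k : ℕ} (hk : 3 ≤ k) :
    ∃ α : ℝ, 0 < α ∧ Tendsto (fun n : ℕ => aa k n / n) atTop (𝓝 α) := by
  have hD := DD_pos k
  have hC := C1_nonneg k
  obtain ⟨α, hα⟩ := conv (r := fun n : ℕ => aa k n / n)
    (C := 2 * DD k + 1 + (2 ^ (k + 2) + C1 k)) (M := 2 ^ (k + 2)) (by positivity)
    (fun n => by
      rcases Nat.eq_zero_or_pos n with rfl | hn
      · simp
      · exact div_nonneg (aa_nonneg k hn) (by positivity))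
    (fun n => by
      rcases Nat.eq_zero_or_pos n with rfl | hn
      · simp
      · rw [div_le_iff₀ (by exact_mod_cast hn)]; exact aa_le k hn)
    (fun n hn => by
      have := succ_bound hk n hn
      have h1 : 0 ≤ (2 * DD k + 1) / rt n := div_nonneg (by positivity) (rt_nonneg _)
      rw [add_div]
      linarith)
    (fun n₁ n₂ h₁ h₂ h₃ h₄ => by
      have := split_bound hk n₁ n₂ h₁ h₂ h₃ h₄
      have h1 : 0 ≤ (2 ^ (k + 2) + C1 k) / rt (n₁ + n₂) := div_nonneg (by positivity) (rt_nonneg _)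
      rw [add_div]
      linarith)
  refine ⟨α, ?_, hα⟩
  have ht : Tendsto (fun n => 1 / 24 - (DD k + 1) / rt n) atTop (𝓝 (1 / 24 - 0)) :=
    tendsto_const_nhds.sub (tendsto_rt.const_div_atTop _)
  have : 1 / 24 - 0 ≤ α := by
    refine le_of_tendsto_of_tendsto ht hα ?_
    filter_upwards [eventually_ge_atTop 2] with n hn
    have h1 := hall_bound (k := k) (n := n) (m := n / 24) (by omega) (by omega) (by omega)
    have h2 : ((n / 24 : ℕ) : ℝ) ≤ n := by exact_mod_cast Nat.div_le_self n 24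
    have h3 : (1:ℝ) ≤ 2 ^ (k + 2) := one_le_pow₀ one_le_two
    have hn0 : (0:ℝ) < n := by exact_mod_cast (show 0 < n by omega)
    have h4 := aa_ge_of_half hk hn (m := n / 24) (by nlinarith) h1
    have h5 : (n:ℝ) ≤ 24 * ((n / 24 : ℕ) : ℝ) + 24 := by
      exact_mod_cast (show n ≤ 24 * (n / 24) + 24 by omega)
    have ht1 := one_le_rt (n := n) (by omega)
    have h6 : 1 ≤ rt n ^ 5 := one_le_pow₀ ht1
    have h7 : (DD k + 1) / rt n * n = (DD k + 1) * rt n ^ 5 := by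
      rw [← rt_pow n]
      field_simp
    rw [le_div_iff₀ hn0, sub_mul, h7]
    nlinarith
  linarith

lemma qq_nonneg (k n m : ℕ) : 0 ≤ qq k n 1 m := by
  unfold qq
  rw [lazy_one, op_pow_apply]
  exact Finset.expect_nonneg fun _ _ => u_nonneg _

lemma qq_le_one (k : ℕ) {n : ℕ} (hn : 1 ≤ n) (m : ℕ) : qq k n 1 m ≤ 1 := by
  have : Nonempty (Fin n) := ⟨⟨0, hn⟩⟩
  unfold qq
  rw [lazy_one, op_pow_apply]
  exact Finset.expect_le Finset.univ_nonempty fun _ _ => u_le_one _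

lemma small_of {k n m : ℕ} (hn : 1 ≤ n) {c δ q x : ℝ} (_hc : 0 ≤ c) (hδ : 0 < δ) (hq : 0 ≤ q)
    (hm : (m:ℝ) ≤ c * n) (hx : δ * n ≤ x) (h : q * x ^ 2 ≤ m * (CW k * rt n ^ 4)) :
    q ≤ c * CW k / δ ^ 2 / rt n := by
  have ht := one_le_rt hn
  have hW := CW_nonneg k
  have hp := rt_pow n
  set t := rt n
  rw [← hp] at hm hx
  have h1 : (δ * t ^ 6) ^ 2 ≤ x ^ 2 := pow_le_pow_left₀ (by positivity) hx _
  have h2 := mul_le_mul_of_nonneg_left h1 hq
  have h3 := mul_le_mul_of_nonneg_right hm (show 0 ≤ CW k * t ^ 4 by positivity)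
  rw [le_div_iff₀ (by linarith), le_div_iff₀ (by positivity)]
  have h4 : q * t * δ ^ 2 * t ^ 10 ≤ q * (δ * t ^ 6) ^ 2 := by
    have : q * t * δ ^ 2 * t ^ 10 * 1 ≤ q * t * δ ^ 2 * t ^ 10 * t :=
      mul_le_mul_of_nonneg_left ht (by positivity)
    nlinarith
  have h5 : q * t * δ ^ 2 * t ^ 10 ≤ c * CW k * t ^ 10 := by nlinarith
  exact le_of_mul_le_mul_right h5 (by positivity)

theorem main_iid {k : ℕ} (hk : 3 ≤ k) : ∃ α : ℝ, 0 < α ∧
    (∀ c : ℝ, 0 ≤ c → c < α → Tendsto (fun n : ℕ => 1 - qq k n 1 ⌊c * n⌋₊) atTop (𝓝 0)) ∧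
    (∀ c : ℝ, α < c → Tendsto (fun n : ℕ => qq k n 1 ⌊c * n⌋₊) atTop (𝓝 0)) := by
  obtain ⟨α, hα0, hα⟩ := exists_limit hk
  refine ⟨α, hα0, fun c hc0 hc => ?_, fun c hc => ?_⟩
  · have hδ : 0 < (α - c) / 2 := by linarith
    refine squeeze_zero' ?_ ?_ (tendsto_rt.const_div_atTop (c * CW k / ((α - c) / 2) ^ 2))
    · filter_upwards [eventually_ge_atTop 1] with n hn
      linarith [qq_le_one k hn ⌊c * n⌋₊]
    · filter_upwards [eventually_ge_atTop 2,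
        hα.eventually (lt_mem_nhds (show c + (α - c) / 2 < α by linarith))] with n hn h1
      have hn0 : (0:ℝ) < n := by exact_mod_cast (show 0 < n by omega)
      rw [lt_div_iff₀ hn0] at h1
      have m1 := Nat.floor_le (show 0 ≤ c * n by positivity)
      have h2 := (tails hk hn (one_le_rt (n := n) (by omega)) (rt_pow n)).1 1 ⌊c * n⌋₊ zero_le_one
        le_rfl (by nlinarith)
      exact small_of (by omega) hc0 hδ (by linarith [qq_le_one k (n := n) (by omega) ⌊c * n⌋₊]) m1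
        (by nlinarith) h2
  · have hδ : 0 < (c - α) / 3 := by linarith
    have hc0 : 0 ≤ c := by linarith
    refine squeeze_zero' (Eventually.of_forall fun n => qq_nonneg _ _ _) ?_
      (tendsto_rt.const_div_atTop (c * CW k / ((c - α) / 3) ^ 2))
    filter_upwards [eventually_ge_atTop 2,
      hα.eventually (gt_mem_nhds (show α < α + (c - α) / 3 by linarith)),
      tendsto_natCast_atTop_atTop.eventually_ge_atTop (1 / ((c - α) / 3))] with n hn h1 h3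
    have hn0 : (0:ℝ) < n := by exact_mod_cast (show 0 < n by omega)
    rw [div_lt_iff₀ hn0] at h1
    rw [div_le_iff₀ hδ] at h3
    have m1 := Nat.floor_le (show 0 ≤ c * n by positivity)
    have m2 := Nat.lt_floor_add_one (c * n)
    have h2 := (tails hk hn (one_le_rt (n := n) (by omega)) (rt_pow n)).2 ⌊c * n⌋₊ (by nlinarith)
    exact small_of (by omega) hc0 hδ (qq_nonneg _ _ _) m1 (by nlinarith) h2

end Vale.Agent.P170
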