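import Mathlib

/-! Averaging operators given by intersecting with a random set, Green functions, martingale bounds. -/

namespace Vale.Agent.P170

open Finset BigOperators

variable {Ω : Type*} {ι κ : Type*} [Fintype ι] [Fintype κ]

/-- average of `f (S ∩ s c)` over a uniform `c`. -/
noncomputable def op (s : ι → Set Ω) : Module.End ℝ (Set Ω → ℝ) where
  toFun f S := 𝔼 c, f (S ∩ s c)
  map_add' f g := by
    funext S
    simp [expect_add_distrib]
  map_smul' a f := by
    funext S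
    simp [mul_expect]

lemma op_apply (s : ι → Set Ω) (f : Set Ω → ℝ) (S : Set Ω) : op s f S = 𝔼 c, f (S ∩ s c) := rfl

lemma op_mono (s : ι → Set Ω) {f g : Set Ω → ℝ} {S : Set Ω} (h : ∀ T ⊆ S, f T ≤ g T) :
    op s f S ≤ op s g S :=
  expect_le_expect fun _ _ => h _ Set.inter_subset_left

lemma op_const [Nonempty ι] (s : ι → Set Ω) (a : ℝ) (S : Set Ω) : op s (fun _ => a) S = a := by
  simp [op_apply]

lemma op_empty [Nonempty ι] (s : ι → Set Ω) (f : Set Ω → ℝ) : op s f ∅ = f ∅ := by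
  simp [op_apply]

lemma op_comm (s : ι → Set Ω) (t : κ → Set Ω) : Commute (op s) (op t) := by
  ext1 f
  funext S
  simp only [Module.End.mul_apply, op_apply]
  rw [expect_comm]
  simp [Set.inter_right_comm]

open Classical in
/-- indicator of nonemptiness -/
noncomputable def u (S : Set Ω) : ℝ := if S.Nonempty then 1 else 0

lemma u_empty : u (∅ : Set Ω) = 0 := by simp [u]
lemma u_of_nonempty {S : Set Ω} (h : S.Nonempty) : u S = 1 := by simp [u, h]
lemma u_nonneg (S : Set Ω) : 0 ≤ u S := by unfold u; split_ifs <;> norm_num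
lemma u_le_one (S : Set Ω) : u S ≤ 1 := by unfold u; split_ifs <;> norm_num

/-- probability that one random set kills `S` -/
noncomputable def kill (s : ι → Set Ω) (S : Set Ω) : ℝ := 1 - op s u S

lemma kill_nonneg [Nonempty ι] (s : ι → Set Ω) (S : Set Ω) : 0 ≤ kill s S := by
  have : op s u S ≤ op s (fun _ => (1:ℝ)) S := op_mono s fun T _ => u_le_one T
  rw [op_const] at this
  unfold kill; linarith

lemma u_mono {S T : Set Ω} (h : T ⊆ S) : u T ≤ u S := by
  by_cases hT : T.Nonempty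
  · rw [u_of_nonempty hT, u_of_nonempty (hT.mono h)]
  · rw [Set.not_nonempty_iff_eq_empty.1 hT, u_empty]; exact u_nonneg _

lemma kill_anti (s : ι → Set Ω) {S T : Set Ω} (h : T ⊆ S) : kill s S ≤ kill s T := by
  unfold kill
  have : op s u T ≤ op s u S :=
    expect_le_expect fun _ _ => u_mono (Set.inter_subset_inter_left _ h)
  linarith

/-- a strict supersolution -/
def Super (s : ι → Set Ω) (ψ : Set Ω → ℝ) : Prop :=
  ψ ∅ = 0 ∧ (∀ S, 0 ≤ ψ S) ∧ ∀ S, S.Nonempty → 1 + op s ψ S ≤ ψ S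

lemma maxp [Finite Ω] {s : ι → Set Ω} {ψ : Set Ω → ℝ} (hψ : Super s ψ) {φ : Set Ω → ℝ}
    {U : Set Ω} (h0 : φ ∅ ≤ 0) (h : ∀ S ⊆ U, S.Nonempty → φ S ≤ op s φ S) :
    ∀ S ⊆ U, φ S ≤ 0 := by
  classical
  obtain ⟨hψ0, hψ1, hψ2⟩ := hψ
  have hpos : ∀ S, S.Nonempty → 0 < ψ S := by
    intro S hS
    have h1 := hψ2 S hS
    have h2 : 0 ≤ op s ψ S := expect_nonneg fun _ _ => hψ1 _
    linarith
  by_contra hcon
  push Not at hcon
  obtain ⟨S0, hS0U, hS0⟩ := hcon
  have hS0n : S0.Nonempty := by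
    by_contra hn
    rw [Set.not_nonempty_iff_eq_empty.1 hn] at hS0
    linarith
  have hfin : {S : Set Ω | S ⊆ U ∧ S.Nonempty}.Finite := Set.toFinite _
  obtain ⟨S1, ⟨hS1U, hS1n⟩, hmax⟩ :=
    Set.exists_max_image {S : Set Ω | S ⊆ U ∧ S.Nonempty} (fun S => φ S / ψ S) hfin ⟨S0, hS0U, hS0n⟩
  set t := φ S1 / ψ S1 with ht
  have htpos : 0 < t := lt_of_lt_of_le (div_pos hS0 (hpos _ hS0n)) (hmax S0 ⟨hS0U, hS0n⟩)
  have hle : ∀ T ⊆ S1, φ T ≤ (t • ψ) T := by
    intro T hT
    by_cases hn : T.Nonempty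
    · have := hmax T ⟨hT.trans hS1U, hn⟩
      rw [div_le_iff₀ (hpos _ hn)] at this
      simpa using this
    · rw [Set.not_nonempty_iff_eq_empty.1 hn]
      simp [hψ0, h0]
  have h1 := op_mono s hle
  rw [map_smul] at h1
  have h2 := h S1 hS1U hS1n
  have h3 := hψ2 S1 hS1n
  have h4 : φ S1 = t * ψ S1 := by rw [ht, div_mul_cancel₀ _ (hpos _ hS1n).ne']
  simp only [Pi.smul_apply, smul_eq_mul] at h1
  nlinarith

/-- `G` is the Green function of `g` -/
def IsGreen (s : ι → Set Ω) (g G : Set Ω → ℝ) : Prop :=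
  G ∅ = 0 ∧ ∀ S, S.Nonempty → G S = g S + op s G S

lemma le_green [Finite Ω] {s : ι → Set Ω} {ψ : Set Ω → ℝ} (hψ : Super s ψ) {g G φ : Set Ω → ℝ}
    (hG : IsGreen s g G) {U : Set Ω} (h0 : φ ∅ ≤ 0)
    (h : ∀ S ⊆ U, S.Nonempty → φ S ≤ g S + op s φ S) : ∀ S ⊆ U, φ S ≤ G S := by
  have := maxp hψ (φ := φ - G) (U := U) (by simp [hG.1, h0]) (by
    intro S hS hn
    have h1 := h S hS hn
    have h2 := hG.2 S hn
    rw [map_sub]
    simp only [Pi.sub_apply]
    linarith)
  intro S hS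
  have h3 := this S hS
  simp only [Pi.sub_apply] at h3
  linarith

lemma green_le [Finite Ω] {s : ι → Set Ω} {ψ : Set Ω → ℝ} (hψ : Super s ψ) {g G φ : Set Ω → ℝ}
    (hG : IsGreen s g G) {U : Set Ω} (h0 : 0 ≤ φ ∅)
    (h : ∀ S ⊆ U, S.Nonempty → g S + op s φ S ≤ φ S) : ∀ S ⊆ U, G S ≤ φ S := by
  have := maxp hψ (φ := G - φ) (U := U) (by simp [hG.1, h0]) (by
    intro S hS hn
    have h1 := h S hS hn
    have h2 := hG.2 S hn
    rw [map_sub]
    simp only [Pi.sub_apply]
    linarith)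
  intro S hS
  have h3 := this S hS
  simp only [Pi.sub_apply] at h3
  linarith

lemma green_mono [Finite Ω] {s : ι → Set Ω} {ψ : Set Ω → ℝ} (hψ : Super s ψ)
    {g G g' G' : Set Ω → ℝ} (hG : IsGreen s g G) (hG' : IsGreen s g' G') {U : Set Ω}
    (h : ∀ S ⊆ U, S.Nonempty → g S ≤ g' S) : ∀ S ⊆ U, G S ≤ G' S :=
  le_green hψ hG' hG.1.le fun S hS hn => by
    have := hG.2 S hn
    have := h S hS hn
    linarith

lemma green_nonneg [Finite Ω] [Nonempty ι] {s : ι → Set Ω} {ψ : Set Ω → ℝ} (hψ : Super s ψ)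
    {g G : Set Ω → ℝ} (hG : IsGreen s g G) (h : ∀ S, S.Nonempty → 0 ≤ g S) (S : Set Ω) :
    0 ≤ G S :=
  le_green hψ hG (φ := fun _ => 0) (U := Set.univ) le_rfl
    (fun S _ hn => by rw [op_const]; linarith [h S hn]) S (Set.subset_univ _)

lemma green_unique [Finite Ω] {s : ι → Set Ω} {ψ : Set Ω → ℝ} (hψ : Super s ψ)
    {g G G' : Set Ω → ℝ} (hG : IsGreen s g G) (hG' : IsGreen s g G') : G = G' := by
  funext S
  exact le_antisymm (green_mono hψ hG hG' (U := Set.univ) (fun _ _ _ => le_rfl) S (Set.subset_univ _))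
    (green_mono hψ hG' hG (U := Set.univ) (fun _ _ _ => le_rfl) S (Set.subset_univ _))

lemma exists_green [Finite Ω] {s : ι → Set Ω} {ψ : Set Ω → ℝ} (hψ : Super s ψ)
    (g : Set Ω → ℝ) : ∃ G, IsGreen s g G := by
  classical
  let A : (Set Ω → ℝ) →ₗ[ℝ] (Set Ω → ℝ) :=
    { toFun := fun f S => f S - u S * op s f S
      map_add' := fun f g => by funext S; simp; ring
      map_smul' := fun a f => by funext S; simp; ring }
  have hA : ∀ f S, A f S = f S - u S * op s f S := fun _ _ => rfl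
  have hinj : Function.Injective A := by
    rw [← LinearMap.ker_eq_bot, LinearMap.ker_eq_bot']
    intro f hf
    have h0 : f ∅ = 0 := by
      have := congrFun hf ∅
      rw [hA, u_empty] at this
      simpa using this
    have hG : IsGreen s 0 f := ⟨h0, fun S hn => by
      have := congrFun hf S
      rw [hA, u_of_nonempty hn] at this
      simp only [Pi.zero_apply] at this ⊢
      linarith⟩
    have hG0 : IsGreen s 0 0 := ⟨rfl, fun S _ => by simp⟩
    exact green_unique hψ hG hG0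
  obtain ⟨G, hG⟩ := (LinearMap.injective_iff_surjective.1 hinj) (fun S => u S * g S)
  refine ⟨G, ?_, fun S hn => ?_⟩
  · have := congrFun hG ∅
    rw [hA, u_empty] at this
    simpa using this
  · have := congrFun hG S
    rw [hA, u_of_nonempty hn] at this
    linarith

lemma IsGreen.lin {s : ι → Set Ω} {g G g' G' : Set Ω → ℝ} (h : IsGreen s g G)
    (h' : IsGreen s g' G') (a b : ℝ) :
    IsGreen s (fun S => a * g S + b * g' S) (fun S => a * G S + b * G' S) := by
  refine ⟨by simp [h.1, h'.1], fun S hn => ?_⟩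
  have : op s (fun S => a * G S + b * G' S) S = a * op s G S + b * op s G' S := by
    simp [op_apply, expect_add_distrib, mul_expect]
  rw [this]
  have h1 := h.2 S hn
  have h2 := h'.2 S hn
  beta_reduce
  linear_combination a * h1 + b * h2

lemma green_u [Nonempty ι] (s : ι → Set Ω) : IsGreen s (kill s) u :=
  ⟨u_empty, fun S hn => by rw [u_of_nonempty hn, kill]; ring⟩

/-- the loss of expected lifetime caused by one set of another system -/
lemma green_loss [Nonempty ι] [Nonempty κ] {s : ι → Set Ω} {h : Set Ω → ℝ}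
    (hh : IsGreen s (fun _ => 1) h) (t : κ → Set Ω) :
    IsGreen s (kill t) (h - op t h) := by
  have hu : h - op s h = u := by
    funext S
    by_cases hn : S.Nonempty
    · have := hh.2 S hn
      rw [u_of_nonempty hn]
      simp only [Pi.sub_apply]
      linarith
    · rw [Set.not_nonempty_iff_eq_empty.1 hn, u_empty]
      simp [op_empty]
  refine ⟨by simp [op_empty], fun S hn => ?_⟩
  have hc : op s (op t h) = op t (op s h) := by
    have := congrArg (fun T => T h) (op_comm s t).eq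
    simpa using this
  have h1 : op t u S = op t h S - op t (op s h) S := by rw [← hu, map_sub]; rfl
  have h2 := hh.2 S hn
  rw [map_sub, hc, kill, h1]
  simp only [Pi.sub_apply]
  linarith

/-- comparison of lifetimes of two systems -/
lemma life_cmp [Finite Ω] [Nonempty ι] [Nonempty κ] {s : ι → Set Ω} {t : κ → Set Ω}
    {ψ ψ' h h' : Set Ω → ℝ} (hψ : Super s ψ) (hψ' : Super t ψ')
    (hh : IsGreen s (fun _ => 1) h) (hh' : IsGreen t (fun _ => 1) h') {a b H : ℝ} (hb : 0 ≤ b)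
    (hk : ∀ S, S.Nonempty → kill t S ≤ a * kill s S + b) (hH : ∀ S, h S ≤ H) (S : Set Ω) :
    h S ≤ (a + b * H) * h' S := by
  have h1 := green_mono hψ (green_loss hh t) ((green_u s).lin hh a b) (U := Set.univ)
    (fun S _ hn => by simpa using hk S hn)
  have h2 := (hh'.lin hh' (a + b * H) 0)
  have := le_green hψ' h2 (φ := h) (U := Set.univ) hh.1.le (fun S _ hn => by
    have h3 := h1 S (Set.subset_univ _)
    rw [u_of_nonempty hn] at h3
    simp only [Pi.sub_apply] at h3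
    have h4 := mul_le_mul_of_nonneg_left (hH S) hb
    linarith) S (Set.subset_univ _)
  simpa using this

lemma life_mul_kill_le [Finite Ω] [Nonempty ι] {s : ι → Set Ω} {ψ h : Set Ω → ℝ}
    (hψ : Super s ψ) (hh : IsGreen s (fun _ => 1) h) (S : Set Ω) : kill s S * h S ≤ 1 := by
  have := green_mono hψ (hh.lin hh (kill s S) 0) (green_u s) (U := S)
    (fun T hT _ => by simpa using kill_anti s hT) S le_rfl
  have h2 := u_le_one S
  simp only [zero_mul, add_zero] at this
  linarith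

lemma sq_expect_le [Nonempty ι] (f : ι → ℝ) : (𝔼 c, f c) ^ 2 ≤ 𝔼 c, f c ^ 2 := by
  have := expect_mul_sq_le_sq_mul_sq univ f (fun _ => (1:ℝ))
  simpa using this

/-- the one step variance -/
noncomputable def V (s : ι → Set Ω) (h : Set Ω → ℝ) (S : Set Ω) : ℝ :=
  𝔼 c, (h S - h (S ∩ s c)) ^ 2

lemma V_nonneg (s : ι → Set Ω) (h : Set Ω → ℝ) (S : Set Ω) : 0 ≤ V s h S :=
  expect_nonneg fun _ _ => sq_nonneg _

lemma V_le [Nonempty ι] {s : ι → Set Ω} {h : Set Ω → ℝ}
    (hh : IsGreen s (fun _ => 1) h) (S : Set Ω) (hn : S.Nonempty) :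
    V s h S ≤ 2 * (kill s S * h S) + op s (V s h) S := by
  have key : ∀ c, (h S - h (S ∩ s c)) ^ 2 ≤
      2 * h S * (1 - u (S ∩ s c)) + 𝔼 c', (h (S ∩ s c') - h (S ∩ s c' ∩ s c)) ^ 2 := by
    intro c
    have hJ := sq_expect_le (fun c' => h (S ∩ s c') - h (S ∩ s c' ∩ s c))
    have hS := hh.2 S hn
    rw [expect_sub_distrib] at hJ
    by_cases hc : (S ∩ s c).Nonempty
    · have hSc := hh.2 _ hc
      rw [u_of_nonempty hc]
      have e1 : 𝔼 c', h (S ∩ s c' ∩ s c) = op s h (S ∩ s c) := by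
        simp [op_apply, Set.inter_right_comm]
      rw [e1, ← op_apply] at hJ
      have e2 : h S - h (S ∩ s c) = op s h S - op s h (S ∩ s c) := by linarith
      rw [e2]
      linarith
    · have hc' := Set.not_nonempty_iff_eq_empty.1 hc
      have e1 : 𝔼 c', h (S ∩ s c' ∩ s c) = 0 := by
        apply expect_eq_zero
        intro c' _
        rw [Set.inter_right_comm, hc', Set.empty_inter, hh.1]
      rw [e1, ← op_apply] at hJ
      rw [hc', u_empty, hh.1]
      have e2 : op s h S = h S - 1 := by linarith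
      rw [e2] at hJ
      nlinarith
  have h1 : V s h S ≤ 𝔼 c, (2 * h S * (1 - u (S ∩ s c)) +
      𝔼 c', (h (S ∩ s c') - h (S ∩ s c' ∩ s c)) ^ 2) := expect_le_expect fun c _ => key c
  rw [expect_add_distrib, expect_comm, ← mul_expect, expect_sub_distrib, Fintype.expect_const] at h1
  have h2 : op s (V s h) S = 𝔼 c', 𝔼 c, (h (S ∩ s c') - h (S ∩ s c' ∩ s c)) ^ 2 := rfl
  rw [h2, kill, op_apply]
  linarith

/-- the lazy operator -/
noncomputable def lazy (s : ι → Set Ω) (l : ℝ) : Module.End ℝ (Set Ω → ℝ) :=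
  l • op s + (1 - l) • 1

lemma lazy_apply (s : ι → Set Ω) (l : ℝ) (f : Set Ω → ℝ) (S : Set Ω) :
    lazy s l f S = l * op s f S + (1 - l) * f S := by
  simp [lazy]

lemma lazy_one (s : ι → Set Ω) : lazy s 1 = op s := by simp [lazy]

lemma cheb_step [Nonempty ι] {s : ι → Set Ω} {h W : Set Ω → ℝ}
    (hh : IsGreen s (fun _ => 1) h)
    (hW' : ∀ S, S.Nonempty → op s W S ≤ W S) (hV : ∀ S, S.Nonempty → V s h S ≤ W S)
    {l : ℝ} (hl0 : 0 ≤ l) (hl1 : l ≤ 1) (q : Set Ω → ℝ) (z y : ℝ) (m : ℕ) (S : Set Ω)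
    (hn : S.Nonempty) (H : ∀ T, q T * z ≤ (h T + (y + l)) ^ 2 + m * W T) :
    lazy s l q S * z ≤ (h S + y) ^ 2 + (m + 1 : ℕ) * W S := by
  have h1 : op s q S * z ≤ 𝔼 c, ((h (S ∩ s c) + (y + l)) ^ 2 + m * W (S ∩ s c)) := by
    rw [op_apply, expect_mul]
    exact expect_le_expect fun c _ => H _
  have h2 : 𝔼 c, ((h (S ∩ s c) + (y + l)) ^ 2 + m * W (S ∩ s c)) =
      (h S + y + l) ^ 2 - 2 * (h S + y + l) * (h S - op s h S) + V s h S + m * op s W S := by
    have : ∀ c, (h (S ∩ s c) + (y + l)) ^ 2 + m * W (S ∩ s c) =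
        ((h S + y + l) ^ 2 - 2 * (h S + y + l) * (h S - h (S ∩ s c))) +
          (h S - h (S ∩ s c)) ^ 2 + m * W (S ∩ s c) := fun c => by ring
    simp_rw [this]
    rw [expect_add_distrib, expect_add_distrib, expect_sub_distrib, ← mul_expect, ← mul_expect,
      expect_sub_distrib, Fintype.expect_const, Fintype.expect_const]
    rfl
  have h3 := hh.2 S hn
  have h4 : h S - op s h S = 1 := by linarith
  rw [h2, h4] at h1
  have h5 := H S
  have h6 := hW' S hn
  have h7 := hV S hn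
  have h8 := V_nonneg s h S
  rw [lazy_apply]
  push_cast
  have hm : (0:ℝ) ≤ m := Nat.cast_nonneg m
  have e1 := mul_le_mul_of_nonneg_left h1 hl0
  have e2 := mul_le_mul_of_nonneg_left h5 (sub_nonneg.2 hl1)
  have e3 := mul_le_mul_of_nonneg_left h6 (mul_nonneg hl0 hm)
  have e4 := mul_le_mul_of_nonneg_right hl1 h8
  nlinarith [sq_nonneg l]

lemma lazy_pow_empty [Nonempty ι] (s : ι → Set Ω) (l : ℝ) (f : Set Ω → ℝ) (m : ℕ) :
    (lazy s l ^ m) f ∅ = f ∅ := by
  induction m with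
  | zero => simp
  | succ m ih => rw [pow_succ', Module.End.mul_apply, lazy_apply, op_empty, ih]; ring

lemma lazy_pow_const [Nonempty ι] (s : ι → Set Ω) (l a : ℝ) (m : ℕ) :
    (lazy s l ^ m) (fun _ => a) = fun _ => a := by
  induction m with
  | zero => simp
  | succ m ih =>
    funext S
    rw [pow_succ', Module.End.mul_apply, ih, lazy_apply, op_const]; ring

/-- lower tail -/
lemma cheb_lower [Nonempty ι] {s : ι → Set Ω} {h W : Set Ω → ℝ}
    (hh : IsGreen s (fun _ => 1) h) (hW0 : ∀ S, 0 ≤ W S)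
    (hW' : ∀ S, S.Nonempty → op s W S ≤ W S) (hV : ∀ S, S.Nonempty → V s h S ≤ W S)
    {l : ℝ} (hl0 : 0 ≤ l) (hl1 : l ≤ 1) (m : ℕ) : ∀ (y : ℝ) (S : Set Ω), l * m + y ≤ 0 →
      (1 - (lazy s l ^ m) u S) * (l * m + y) ^ 2 ≤ (h S + y) ^ 2 + m * W S := by
  induction m with
  | zero =>
    intro y S _
    by_cases hn : S.Nonempty
    · simp [u_of_nonempty hn, sq_nonneg]
    · rw [Set.not_nonempty_iff_eq_empty.1 hn]
      simp [u_empty, hh.1]
  | succ m ih =>
    intro y S hy
    by_cases hn : S.Nonempty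
    · have := cheb_step hh hW' hV hl0 hl1 ((fun _ => 1) - (lazy s l ^ m) u)
        ((l * (m + 1 : ℕ) + y) ^ 2) y m S hn (fun T => by
          have := ih (y + l) T (by push_cast at hy; linarith)
          have e : l * (m + 1 : ℕ) + y = l * m + (y + l) := by push_cast; ring
          rw [e]
          simpa using this)
      rw [map_sub] at this
      have e : lazy s l (fun _ => (1:ℝ)) S = 1 := by rw [lazy_apply, op_const]; ring
      simp only [Pi.sub_apply, e] at this
      rw [pow_succ', Module.End.mul_apply]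
      exact this
    · rw [Set.not_nonempty_iff_eq_empty.1 hn, lazy_pow_empty, u_empty, hh.1]
      have h1 : 0 ≤ l * (m + 1 : ℕ) := by positivity
      have h2 : 0 ≤ ((m + 1 : ℕ) : ℝ) * W ∅ := mul_nonneg (by positivity) (hW0 _)
      nlinarith

/-- upper tail -/
lemma cheb_upper [Nonempty ι] {s : ι → Set Ω} {h W : Set Ω → ℝ}
    (hh : IsGreen s (fun _ => 1) h) (hh0 : ∀ S, 0 ≤ h S) (hW0 : ∀ S, 0 ≤ W S)
    (hW' : ∀ S, S.Nonempty → op s W S ≤ W S) (hV : ∀ S, S.Nonempty → V s h S ≤ W S)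
    (m : ℕ) : ∀ (y : ℝ) (S : Set Ω), 0 ≤ m + y →
      (op s ^ m) u S * (m + y) ^ 2 ≤ (h S + y) ^ 2 + m * W S := by
  rw [← lazy_one]
  induction m with
  | zero =>
    intro y S hy
    have h1 := u_le_one S
    have h2 := u_nonneg S
    have h3 := hh0 S
    simp only [pow_zero, Module.End.one_apply, Nat.cast_zero, zero_add, zero_mul, add_zero] at hy ⊢
    nlinarith [mul_nonneg h3 hy, sq_nonneg y, mul_nonneg (sub_nonneg.2 h1) (sq_nonneg y)]
  | succ m ih =>
    intro y S hy
    by_cases hn : S.Nonempty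
    · have := cheb_step hh hW' hV zero_le_one le_rfl ((lazy s 1 ^ m) u)
        (((m + 1 : ℕ) + y) ^ 2) y m S hn (fun T => by
          have := ih (y + 1) T (by push_cast at hy; linarith)
          have e : ((m + 1 : ℕ) : ℝ) + y = m + (y + 1) := by push_cast; ring
          rw [e]
          exact this)
      rw [pow_succ', Module.End.mul_apply]
      exact this
    · rw [Set.not_nonempty_iff_eq_empty.1 hn, lazy_pow_empty, u_empty, hh.1]
      have h2 : 0 ≤ ((m + 1 : ℕ) : ℝ) * W ∅ := mul_nonneg (by positivity) (hW0 _)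
      nlinarith [sq_nonneg y]

/-- existence of the variance proxy `W` with a bound in terms of any Green function `D`. -/
lemma exists_W [Finite Ω] [Nonempty ι] {s : ι → Set Ω} {ψ h : Set Ω → ℝ} (hψ : Super s ψ)
    (hh : IsGreen s (fun _ => 1) h) {g D : Set Ω → ℝ} (hD : IsGreen s g D) {K : ℝ}
    (hK : ∀ S, S.Nonempty → kill s S * h S ≤ K * g S) :
    ∃ W : Set Ω → ℝ, (∀ S, 0 ≤ W S) ∧ (∀ S, S.Nonempty → op s W S ≤ W S) ∧
      (∀ S, S.Nonempty → V s h S ≤ W S) ∧ ∀ S, W S ≤ 2 * K * D S := by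
  obtain ⟨W, hW⟩ := exists_green hψ (fun S => 2 * (kill s S * h S))
  have hh0 : ∀ S, 0 ≤ h S := green_nonneg hψ hh (fun _ _ => zero_le_one)
  have hp : ∀ S, 0 ≤ 2 * (kill s S * h S) := fun S =>
    mul_nonneg zero_le_two (mul_nonneg (kill_nonneg s S) (hh0 S))
  refine ⟨W, green_nonneg hψ hW (fun S _ => hp S), fun S hn => ?_, fun S _ => ?_, fun S => ?_⟩
  · have := hW.2 S hn
    have := hp S
    linarith
  · exact le_green hψ hW (U := Set.univ) (by simp [V]) (fun S _ hn => V_le hh S hn) S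
      (Set.subset_univ _)
  · have := green_mono hψ hW (hD.lin hD (2 * K) 0) (U := Set.univ) (fun S _ hn => by
      have := hK S hn
      linarith) S (Set.subset_univ _)
    simpa using this

/-- number of points -/
noncomputable def cnt [Fintype Ω] (S : Set Ω) : ℝ := ∑ σ, S.indicator 1 σ

lemma cnt_nonneg [Fintype Ω] (S : Set Ω) : 0 ≤ cnt S :=
  sum_nonneg fun _ _ => Set.indicator_nonneg (fun _ _ => zero_le_one) _

lemma cnt_le [Fintype Ω] (S : Set Ω) : cnt S ≤ Fintype.card Ω := by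
  have : cnt S ≤ ∑ _σ : Ω, (1:ℝ) :=
    sum_le_sum fun σ _ => Set.indicator_apply_le' (fun _ => le_rfl) (fun _ => zero_le_one)
  simpa using this

lemma one_le_cnt [Fintype Ω] {S : Set Ω} (hn : S.Nonempty) : 1 ≤ cnt S := by
  obtain ⟨σ, hσ⟩ := hn
  have := single_le_sum (f := fun σ => S.indicator (1 : Ω → ℝ) σ)
    (fun _ _ => Set.indicator_nonneg (fun _ _ => zero_le_one) _) (mem_univ σ)
  rw [Set.indicator_of_mem hσ] at this
  exact this

lemma op_cnt_le [Fintype Ω] {s : ι → Set Ω} {δ : ℝ} (hδ : ∀ σ, δ ≤ kill s {σ}) (S : Set Ω) :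
    op s cnt S ≤ (1 - δ) * cnt S := by
  rw [op_apply]
  unfold cnt
  rw [expect_sum_comm, mul_sum]
  refine sum_le_sum fun σ _ => ?_
  by_cases hσ : σ ∈ S
  · have h1 := hδ σ
    have h2 : op s u {σ} = 𝔼 c, (S ∩ s c).indicator (1 : Ω → ℝ) σ := by
      rw [op_apply]
      refine expect_congr rfl fun c _ => ?_
      by_cases hc : σ ∈ s c
      · rw [u_of_nonempty (show ({σ} ∩ s c).Nonempty from ⟨σ, rfl, hc⟩), Set.indicator_of_mem (show σ ∈ S ∩ s c from ⟨hσ, hc⟩)]
        rfl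
      · rw [Set.indicator_of_notMem (fun h => hc h.2), Set.singleton_inter_eq_empty.2 hc, u_empty]
    rw [← h2, Set.indicator_of_mem hσ]
    unfold kill at h1
    simp only [Pi.one_apply]
    linarith
  · rw [Set.indicator_of_notMem hσ, expect_eq_zero fun c _ =>
      Set.indicator_of_notMem (fun h => hσ h.1) _]
    simp

lemma super_log [Fintype Ω] [Nonempty ι] {s : ι → Set Ω} {δ : ℝ} (hδ0 : 0 < δ)
    (hδ : ∀ σ, δ ≤ kill s {σ}) : Super s (fun S => 2 / δ * Real.log (1 + cnt S)) := by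
  refine ⟨by simp [cnt], fun S => mul_nonneg (by positivity)
    (Real.log_nonneg (by linarith [cnt_nonneg S])), fun S hn => ?_⟩
  have h1 := one_le_cnt hn
  have hp : 0 < 1 + cnt S := by linarith
  have h2 : op s (fun S => 2 / δ * Real.log (1 + cnt S)) S ≤
      op s (fun T => 2 / δ * (Real.log (1 + cnt S) - cnt S / (1 + cnt S)) +
        2 / δ / (1 + cnt S) * cnt T) S := by
    refine op_mono s fun T _ => ?_
    have hT : 0 < 1 + cnt T := by linarith [cnt_nonneg T]
    have h3 := Real.log_le_sub_one_of_pos (div_pos hT hp)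
    rw [Real.log_div hT.ne' hp.ne'] at h3
    have h4 : Real.log (1 + cnt T) ≤ Real.log (1 + cnt S) - cnt S / (1 + cnt S)
        + cnt T / (1 + cnt S) := by
      have : (1 + cnt T) / (1 + cnt S) - 1 = cnt T / (1 + cnt S) - cnt S / (1 + cnt S) := by
        field_simp; ring
      linarith
    have h5 := mul_le_mul_of_nonneg_left h4 (show 0 ≤ 2 / δ by positivity)
    calc _ ≤ _ := h5
      _ = _ := by ring
  have h6 : op s (fun T => 2 / δ * (Real.log (1 + cnt S) - cnt S / (1 + cnt S)) +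
        2 / δ / (1 + cnt S) * cnt T) S = 2 / δ * (Real.log (1 + cnt S) - cnt S / (1 + cnt S)) +
        2 / δ / (1 + cnt S) * op s cnt S := by
    simp only [op_apply]
    rw [expect_add_distrib, Fintype.expect_const, ← mul_expect]
  have h7 := mul_le_mul_of_nonneg_left (op_cnt_le hδ S)
    (show 0 ≤ 2 / δ / (1 + cnt S) by positivity)
  have h8 : 2 / δ / (1 + cnt S) * ((1 - δ) * cnt S) =
      2 / δ * (cnt S / (1 + cnt S)) - 2 * cnt S / (1 + cnt S) := by field_simp
  have h9 : 1 ≤ 2 * cnt S / (1 + cnt S) := by rw [le_div_iff₀ hp]; linarith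
  beta_reduce
  linarith

lemma life_le_super [Finite Ω] {s : ι → Set Ω} {ψ h : Set Ω → ℝ} (hψ : Super s ψ)
    (hh : IsGreen s (fun _ => 1) h) (S : Set Ω) : h S ≤ ψ S :=
  green_le hψ hh (U := Set.univ) (hψ.2.1 _) (fun S _ hn => hψ.2.2 S hn) S (Set.subset_univ _)

/-- monotone operators -/
def Mono (P : Module.End ℝ (Set Ω → ℝ)) : Prop := ∀ f g : Set Ω → ℝ, f ≤ g → P f ≤ P g

lemma Mono.pow {P : Module.End ℝ (Set Ω → ℝ)} (h : Mono P) (m : ℕ) : Mono (P ^ m) := by
  induction m with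
  | zero => intro f g hfg; simpa using hfg
  | succ m ih => intro f g hfg; rw [pow_succ']; exact h _ _ (ih _ _ hfg)

lemma mono_op (s : ι → Set Ω) : Mono (op s) := fun _ _ hfg _ => op_mono s fun T _ => hfg T

lemma pow_le_pow_of_comm {P R : Module.End ℝ (Set Ω → ℝ)} (hP : Mono P) (hR : Mono R)
    (hc : Commute P R) {f : Set Ω → ℝ} (h : R f ≤ P f) (m : ℕ) : (R ^ m) f ≤ (P ^ m) f := by
  induction m with
  | zero => simp
  | succ m ih =>
    calc (R ^ (m + 1)) f = (R ^ m) (R f) := by rw [pow_succ]; rfl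
      _ ≤ (R ^ m) (P f) := hR.pow m _ _ h
      _ = P ((R ^ m) f) := by
        have := congrArg (fun T => T f) (hc.pow_right m).eq
        simpa using this.symm
      _ ≤ P ((P ^ m) f) := hP _ _ ih
      _ = (P ^ (m + 1)) f := by rw [pow_succ']; rfl

lemma smul_pow_le {P R : Module.End ℝ (Set Ω → ℝ)} (hP : Mono P) (hR : Mono R) {β : ℝ}
    (hβ : 0 ≤ β) (h : ∀ f, 0 ≤ f → β • R f ≤ P f) {f : Set Ω → ℝ} (hf : 0 ≤ f) (m : ℕ) :
    β ^ m • (R ^ m) f ≤ (P ^ m) f := by
  induction m with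
  | zero => simp
  | succ m ih =>
    have h0 : 0 ≤ (R ^ m) f := by simpa using hR.pow m _ _ hf
    have h1 := h _ h0
    have h2 := hP _ _ ih
    rw [map_smul] at h2
    rw [pow_succ' R, pow_succ' P, pow_succ β, Module.End.mul_apply, Module.End.mul_apply, mul_smul]
    exact (smul_le_smul_of_nonneg_left h1 (pow_nonneg hβ m)).trans h2

/-- powers of `op` are averages over sequences -/
lemma op_pow_apply (s : ι → Set Ω) (f : Set Ω → ℝ) (m : ℕ) :
    ∀ S, (op s ^ m) f S = 𝔼 F : Fin m → ι, f (S ∩ ⋂ i, s (F i)) := by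
  induction m with
  | zero => intro S; simp
  | succ m ih =>
    intro S
    rw [pow_succ', Module.End.mul_apply, op_apply]
    simp_rw [ih]
    rw [← expect_product', univ_product_univ]
    refine Fintype.expect_equiv (Fin.consEquiv fun _ => ι) _ _ fun p => ?_
    congr 1
    ext σ
    simp [Fin.forall_fin_succ, Fin.consEquiv, and_assoc]

variable {Ω' : Type*}

lemma op_preimage (π : Ω → Ω') (s : ι → Set Ω') (f : Set Ω' → ℝ) (S : Set Ω) :
    op (fun c => π ⁻¹' s c) (fun T => f (π '' T)) S = op s f (π '' S) := by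
  simp [op_apply, Set.image_inter_preimage]

lemma IsGreen.preimage (π : Ω → Ω') {s : ι → Set Ω'} {h : Set Ω' → ℝ}
    (hh : IsGreen s (fun _ => 1) h) :
    IsGreen (fun c => π ⁻¹' s c) (fun _ => 1) (fun T => h (π '' T)) :=
  ⟨by simpa using hh.1, fun S hn => by rw [op_preimage]; exact hh.2 _ (hn.image π)⟩

/-- union bound for a mixture of two systems acting on independent coordinates -/
lemma mix_bound {Ω₁ Ω₂ : Type*} [Nonempty ι] [Nonempty κ] (π₁ : Ω → Ω₁) (π₂ : Ω → Ω₂)
    (hπ : ∀ a b, ∃ σ, π₁ σ = a ∧ π₂ σ = b) (s : ι → Set Ω₁) (t : κ → Set Ω₂) {l : ℝ}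
    (hl0 : 0 ≤ l) (hl1 : l ≤ 1) (m : ℕ) : ∀ (S : Set Ω₁) (T : Set Ω₂),
    (lazy s l ^ m) u S + (lazy t (1 - l) ^ m) u T - 1 ≤
      ((l • op (fun c => π₁ ⁻¹' s c) + (1 - l) • op (fun c => π₂ ⁻¹' t c)) ^ m) u
        (π₁ ⁻¹' S ∩ π₂ ⁻¹' T) := by
  induction m with
  | zero =>
    intro S T
    simp only [pow_zero, Module.End.one_apply]
    by_cases hS : S.Nonempty
    · by_cases hT : T.Nonempty
      · obtain ⟨a, ha⟩ := hS
        obtain ⟨b, hb⟩ := hT
        obtain ⟨σ, h1, h2⟩ := hπ a b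
        have : (π₁ ⁻¹' S ∩ π₂ ⁻¹' T).Nonempty := ⟨σ, by simpa [h1] using ha, by simpa [h2] using hb⟩
        rw [u_of_nonempty this]
        linarith [u_le_one S, u_le_one T]
      · rw [Set.not_nonempty_iff_eq_empty.1 hT, u_empty]
        linarith [u_le_one S, u_nonneg (π₁ ⁻¹' S ∩ π₂ ⁻¹' (∅ : Set Ω₂))]
    · rw [Set.not_nonempty_iff_eq_empty.1 hS, u_empty]
      linarith [u_le_one T, u_nonneg (π₁ ⁻¹' (∅ : Set Ω₁) ∩ π₂ ⁻¹' T)]
  | succ m ih =>
    intro S T
    simp only [pow_succ', Module.End.mul_apply]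
    set R := (l • op (fun c => π₁ ⁻¹' s c) + (1 - l) • op (fun c => π₂ ⁻¹' t c)) ^ m
    set A := (lazy s l ^ m) u
    set B := (lazy t (1 - l) ^ m) u
    have h1 : op s A S + B T - 1 ≤ op (fun c => π₁ ⁻¹' s c) (R u) (π₁ ⁻¹' S ∩ π₂ ⁻¹' T) := by
      have : op s A S + B T - 1 = 𝔼 c, (A (S ∩ s c) + B T - 1) := by
        rw [expect_sub_distrib, expect_add_distrib, Fintype.expect_const, Fintype.expect_const]
        rfl
      rw [this, op_apply]
      refine expect_le_expect fun c _ => ?_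
      have := ih (S ∩ s c) T
      rwa [Set.preimage_inter, Set.inter_right_comm] at this
    have h2 : A S + op t B T - 1 ≤ op (fun c => π₂ ⁻¹' t c) (R u) (π₁ ⁻¹' S ∩ π₂ ⁻¹' T) := by
      have : A S + op t B T - 1 = 𝔼 c, (A S + B (T ∩ t c) - 1) := by
        rw [expect_sub_distrib, expect_add_distrib, Fintype.expect_const, Fintype.expect_const]
        rfl
      rw [this, op_apply]
      refine expect_le_expect fun c _ => ?_
      have := ih S (T ∩ t c)
      rwa [Set.preimage_inter, ← Set.inter_assoc] at this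
    rw [lazy_apply, lazy_apply]
    simp only [LinearMap.add_apply, LinearMap.smul_apply, Pi.add_apply, Pi.smul_apply, smul_eq_mul]
    have e1 := mul_le_mul_of_nonneg_left h1 hl0
    have e2 := mul_le_mul_of_nonneg_left h2 (sub_nonneg.2 hl1)
    nlinarith

end Vale.Agent.P170
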