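import Vale.Agent.P170.Ops

/-! The model with independent literals. -/

namespace Vale.Agent.P170

open Finset BigOperators

variable {W V : Type*}

/-- assignments satisfying an ordered clause whose variables are transported by `f` -/
def cl (f : W → V) (j : ℕ) (c : Fin j → W × Bool) : Set (V → Bool) :=
  {σ | ∃ i, σ (f (c i).1) = (c i).2}

open Classical in
noncomputable def fz (S : Set (V → Bool)) (v : V) (b : Bool) : ℝ :=
  if ∀ σ ∈ S, σ v ≠ b then 1 else 0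

lemma fz_nonneg (S : Set (V → Bool)) (v : V) (b : Bool) : 0 ≤ fz S v b := by
  unfold fz; split_ifs <;> norm_num

lemma fz_le_one (S : Set (V → Bool)) (v : V) (b : Bool) : fz S v b ≤ 1 := by
  unfold fz; split_ifs <;> norm_num

noncomputable def z (S : Set (V → Bool)) (v : V) : ℝ := 𝔼 b, fz S v b

lemma z_nonneg (S : Set (V → Bool)) (v : V) : 0 ≤ z S v :=
  expect_nonneg fun _ _ => fz_nonneg _ _ _

lemma z_le_one (S : Set (V → Bool)) (v : V) : z S v ≤ 1 :=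
  expect_le univ_nonempty fun _ _ => fz_le_one _ _ _

/-- fraction of frozen false literals -/
noncomputable def xf [Fintype W] (f : W → V) (S : Set (V → Bool)) : ℝ := 𝔼 w, z S (f w)

lemma xf_nonneg [Fintype W] (f : W → V) (S : Set (V → Bool)) : 0 ≤ xf f S :=
  expect_nonneg fun _ _ => z_nonneg _ _

lemma xf_le_one [Fintype W] [Nonempty W] (f : W → V) (S : Set (V → Bool)) : xf f S ≤ 1 :=
  expect_le univ_nonempty fun _ _ => z_le_one _ _

lemma kill_cl [Fintype W] [Nonempty W] (f : W → V) (j : ℕ) (S : Set (V → Bool)) :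
    kill (cl f j) S = xf f S ^ j := by
  classical
  have h1 : xf f S = 𝔼 l : W × Bool, fz S (f l.1) l.2 := by
    rw [xf, ← univ_product_univ, expect_product]
    rfl
  rw [h1, expect_pow, Fintype.piFinset_univ, kill, op_apply,
    ← Fintype.expect_const (ι := Fin j → W × Bool) (1:ℝ), ← expect_sub_distrib]
  refine expect_congr (by congr!) fun c _ => ?_
  by_cases hn : (S ∩ cl f j c).Nonempty
  · rw [u_of_nonempty hn, sub_self]
    obtain ⟨σ, hσ, i, hi⟩ := hn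
    symm
    refine prod_eq_zero (mem_univ i) ?_
    unfold fz
    rw [if_neg]
    intro h
    exact h σ hσ hi
  · rw [Set.not_nonempty_iff_eq_empty.1 hn, u_empty, sub_zero]
    symm
    refine prod_eq_one fun i _ => ?_
    unfold fz
    rw [if_pos]
    intro σ hσ hi
    exact hn ⟨σ, hσ, i, hi⟩

lemma xf_singleton [Fintype W] [Nonempty W] (f : W → V) (σ : V → Bool) : xf f {σ} = 1 / 2 := by
  have : ∀ v, z {σ} v = 1 / 2 := by
    intro v
    rw [z, Fintype.expect_eq_sum_div_card]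
    cases h : σ v <;> simp [fz, h]
  simp [xf, this]

lemma super_cl [Fintype W] [Nonempty W] [Fintype V] [DecidableEq V] (f : W → V) (k : ℕ) :
    Super (cl f k) (fun S => 2 / (1 / 2) ^ k * Real.log (1 + cnt S)) :=
  super_log (by positivity) fun σ => by rw [kill_cl, xf_singleton]

lemma green_le_H [Fintype W] [Nonempty W] {n : ℕ} (hn : 1 ≤ n) (f : W → Fin n) (k : ℕ)
    {h : Set (Fin n → Bool) → ℝ} (hh : IsGreen (cl f k) (fun _ => 1) h) (S : Set (Fin n → Bool)) :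
    h S ≤ 2 ^ (k + 2) * n := by
  refine (life_le_super (super_cl f k) hh S).trans ?_
  have h1 : cnt S ≤ 2 ^ n := by simpa using cnt_le S
  have h2 : Real.log (1 + cnt S) ≤ Real.log (2 ^ (n + 1)) := by
    apply Real.log_le_log (by linarith [cnt_nonneg S])
    have : (1:ℝ) ≤ 2 ^ n := one_le_pow₀ one_le_two
    rw [pow_succ]; linarith
  rw [Real.log_pow] at h2
  have h3 : Real.log 2 ≤ 1 := by linarith [Real.log_le_sub_one_of_pos (show (0:ℝ) < 2 by norm_num)]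
  have h4 : (1:ℝ) ≤ n := by exact_mod_cast hn
  have h5 : Real.log (1 + cnt S) ≤ 2 * n := by
    push_cast at h2
    nlinarith
  have h6 : (2:ℝ) / (1 / 2) ^ k = 2 ^ (k + 1) := by
    rw [one_div, inv_pow, div_inv_eq_mul, pow_succ']
  rw [h6]
  calc (2:ℝ) ^ (k + 1) * Real.log (1 + cnt S) ≤ 2 ^ (k + 1) * (2 * n) :=
        mul_le_mul_of_nonneg_left h5 (by positivity)
    _ = _ := by ring

/-- expected number of clauses until `S` dies -/
noncomputable def life (k n : ℕ) : Set (Fin n → Bool) → ℝ :=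
  Classical.epsilon (IsGreen (cl (id : Fin n → Fin n) k) (fun _ => 1))

lemma life_green (k : ℕ) {n : ℕ} (hn : 1 ≤ n) :
    IsGreen (cl (id : Fin n → Fin n) k) (fun _ => 1) (life k n) := by
  have : Nonempty (Fin n) := ⟨⟨0, hn⟩⟩
  exact Classical.epsilon_spec (exists_green (super_cl id k) _)

noncomputable def aa (k n : ℕ) : ℝ := life k n Set.univ

lemma life_nonneg (k : ℕ) {n : ℕ} (hn : 1 ≤ n) (S : Set (Fin n → Bool)) : 0 ≤ life k n S := by
  have : Nonempty (Fin n) := ⟨⟨0, hn⟩⟩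
  exact green_nonneg (super_cl id k) (life_green k hn) (fun _ _ => zero_le_one) S

lemma life_le (k : ℕ) {n : ℕ} (hn : 1 ≤ n) (S : Set (Fin n → Bool)) :
    life k n S ≤ 2 ^ (k + 2) * n := by
  have : Nonempty (Fin n) := ⟨⟨0, hn⟩⟩
  exact green_le_H hn id k (life_green k hn) S

lemma life_le_aa (k : ℕ) {n : ℕ} (hn : 1 ≤ n) (S : Set (Fin n → Bool)) :
    life k n S ≤ aa k n := by
  have : Nonempty (Fin n) := ⟨⟨0, hn⟩⟩
  have := green_nonneg (super_cl id k) (green_loss (life_green k hn) (fun _ : Unit => S))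
    (fun T _ => kill_nonneg _ T) Set.univ
  simpa [op_apply, aa] using this

lemma add_pow_le_aux {x e : ℝ} (hx : 0 ≤ x) (he : 0 ≤ e) (k : ℕ) :
    (x + e) ^ k ≤ x ^ k + k * e * (x + e) ^ (k - 1) := by
  have := pow_add_mul_le_add_pow (a := x + e) (b := -e) (by linarith) (by linarith) k
  rw [show x + e + -e = x by ring] at this
  linarith

lemma add_pow_le_aux2 {x e θ : ℝ} (hx : 0 ≤ x) (he : 0 ≤ e) (heθ : e ≤ θ) (hθ0 : 0 < θ)
    (hθ1 : θ ≤ 1) {k : ℕ} (hk : 3 ≤ k) :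
    (x + e) ^ k ≤ (1 + k * 2 ^ k * (e / θ)) * x ^ k + k * 2 ^ k * e * θ ^ 2 := by
  obtain ⟨j, rfl⟩ : ∃ j, k = j + 3 := ⟨k - 3, by omega⟩
  have h1 := add_pow_le_aux hx he (j + 3)
  rw [show j + 3 - 1 = j + 2 by omega] at h1
  have hk0 : (0:ℝ) ≤ ((j + 3 : ℕ) : ℝ) * e := by positivity
  have h2 : (x + e) ^ (j + 2) ≤ 2 ^ (j + 3) * (x ^ (j + 3) / θ + θ ^ 2) := by
    rcases le_total θ x with h | h
    · have h3 : (x + e) ^ (j + 2) ≤ (2 * x) ^ (j + 2) :=
        pow_le_pow_left₀ (by linarith) (by linarith) _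
      have h4 : x ^ (j + 2) ≤ x ^ (j + 3) / θ := by
        rw [le_div_iff₀ hθ0, pow_succ x (j + 2)]
        exact mul_le_mul_of_nonneg_left h (by positivity)
      rw [mul_pow] at h3
      have h5 : (2:ℝ) ^ (j + 2) ≤ 2 ^ (j + 3) := pow_le_pow_right₀ one_le_two (by omega)
      calc _ ≤ _ := h3
        _ ≤ 2 ^ (j + 3) * (x ^ (j + 3) / θ + θ ^ 2) := by
          apply mul_le_mul h5 (by linarith [sq_nonneg θ]) (by positivity) (by positivity)
    · have h3 : (x + e) ^ (j + 2) ≤ (2 * θ) ^ (j + 2) :=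
        pow_le_pow_left₀ (by linarith) (by linarith) _
      have h4 : θ ^ (j + 2) ≤ θ ^ 2 := pow_le_pow_of_le_one hθ0.le hθ1 (by omega)
      rw [mul_pow] at h3
      have h5 : (2:ℝ) ^ (j + 2) ≤ 2 ^ (j + 3) := pow_le_pow_right₀ one_le_two (by omega)
      have h6 : 0 ≤ x ^ (j + 3) / θ := by positivity
      calc _ ≤ _ := h3
        _ ≤ 2 ^ (j + 3) * (x ^ (j + 3) / θ + θ ^ 2) := by
          apply mul_le_mul h5 (by linarith) (by positivity) (by positivity)
  have h3 := mul_le_mul_of_nonneg_left h2 hk0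
  calc _ ≤ _ := h1
    _ ≤ x ^ (j + 3) + ((j + 3 : ℕ) : ℝ) * e * (2 ^ (j + 3) * (x ^ (j + 3) / θ + θ ^ 2)) := by
      linarith
    _ = _ := by ring

lemma xf_succ {n : ℕ} (_hn : 1 ≤ n) (v : Fin (n + 1)) (S : Set (Fin (n + 1) → Bool)) :
    (n + 1 : ℝ) * xf id S = z S v + n * xf v.succAbove S := by
  have h1 := Fintype.card_mul_expect (fun w : Fin (n + 1) => z S (id w))
  have h2 := Fintype.card_mul_expect (fun w : Fin n => z S (v.succAbove w))
  rw [Fin.sum_univ_succAbove _ v] at h1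
  simp only [Fintype.card_fin, id] at h1 h2
  push_cast at h1
  unfold xf
  simp only [id]
  rw [h1, h2]

lemma xf_add (n₁ n₂ : ℕ) (S : Set (Fin (n₁ + n₂) → Bool)) :
    (n₁ + n₂ : ℝ) * xf id S = n₁ * xf (Fin.castAdd n₂) S + n₂ * xf (Fin.natAdd n₁) S := by
  have h1 := Fintype.card_mul_expect (fun w : Fin (n₁ + n₂) => z S (id w))
  have h2 := Fintype.card_mul_expect (fun w : Fin n₁ => z S (Fin.castAdd n₂ w))
  have h3 := Fintype.card_mul_expect (fun w : Fin n₂ => z S (Fin.natAdd n₁ w))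
  rw [Fin.sum_univ_add] at h1
  simp only [Fintype.card_fin, id] at h1 h2 h3
  push_cast at h1
  unfold xf
  simp only [id]
  rw [h1, h2, h3]

lemma green_succAbove (k : ℕ) {n : ℕ} (hn : 1 ≤ n) (v : Fin (n + 1)) :
    IsGreen (cl v.succAbove k) (fun _ => 1)
      (fun T => life k n ((fun σ : Fin (n + 1) → Bool => σ ∘ v.succAbove) '' T)) :=
  (life_green k hn).preimage (fun σ : Fin (n + 1) → Bool => σ ∘ v.succAbove)

lemma image_succAbove {n : ℕ} (v : Fin (n + 1)) (b : Bool) {T : Set (Fin (n + 1) → Bool)}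
    (hT : ∀ σ, σ v = b → σ ∈ T) :
    (fun σ : Fin (n + 1) → Bool => σ ∘ v.succAbove) '' T = Set.univ := by
  refine Set.eq_univ_of_forall fun τ => ⟨v.insertNth b τ, hT _ (by simp), ?_⟩
  funext w
  simp

lemma aa_succ_le (k : ℕ) {n : ℕ} (hn : 1 ≤ n) :
    aa k (n + 1) ≤ aa k n + k * 2 ^ k * 2 ^ (k + 2) := by
  have : Nonempty (Fin n) := ⟨⟨0, hn⟩⟩
  have hn' : (1:ℝ) ≤ n := by exact_mod_cast hn
  have h := life_cmp (super_cl id k) (super_cl (Fin.succAbove 0) k) (life_green k (n := n + 1) (by omega))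
    (green_succAbove k hn 0) (a := (1 + 1 / n) ^ k) (b := 0) (H := 2 ^ (k + 2) * (n + 1 : ℕ)) le_rfl
    (fun S _ => by
      rw [kill_cl, kill_cl, add_zero, ← mul_pow]
      refine pow_le_pow_left₀ (xf_nonneg _ _) ?_ _
      have h1 := xf_succ hn 0 S
      have h2 := z_nonneg S 0
      have h3 : (1 + 1 / (n:ℝ)) * xf id S = ((n + 1 : ℝ) * xf id S) / n := by field_simp
      rw [h3, le_div_iff₀ (by linarith)]
      linarith) (life_le k (by omega)) Set.univ
  rw [image_succAbove 0 true (by simp), zero_mul, add_zero] at h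
  have h1 := add_pow_le_aux (x := 1) (e := 1 / n) zero_le_one (by positivity) k
  have h2 : (1 + 1 / (n:ℝ)) ^ (k - 1) ≤ 2 ^ k := by
    have : 1 / (n:ℝ) ≤ 1 := by rw [div_le_one (by linarith)]; exact hn'
    calc (1 + 1 / (n:ℝ)) ^ (k - 1) ≤ 2 ^ (k - 1) := pow_le_pow_left₀ (by positivity) (by linarith) _
      _ ≤ 2 ^ k := pow_le_pow_right₀ one_le_two (by omega)
  have h3 := life_le k hn Set.univ
  have h4 := life_nonneg k hn Set.univ
  have h5 : (1 + 1 / (n:ℝ)) ^ k ≤ 1 + k * (1 / n) * 2 ^ k := by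
    have := mul_le_mul_of_nonneg_left h2 (show 0 ≤ k * (1 / (n:ℝ)) by positivity)
    rw [one_pow] at h1
    linarith
  have h6 := mul_le_mul_of_nonneg_right h5 h4
  have h7 := mul_le_mul_of_nonneg_left h3 (show 0 ≤ k * (1 / (n:ℝ)) * 2 ^ k by positivity)
  have h8 : k * (1 / (n:ℝ)) * 2 ^ k * (2 ^ (k + 2) * n) = k * 2 ^ k * 2 ^ (k + 2) := by
    field_simp
  unfold aa
  nlinarith

lemma aa_le_unit {k : ℕ} (hk : 3 ≤ k) {n : ℕ} (hn : 1 ≤ n) {t : ℝ} (ht1 : 1 ≤ t)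
    (ht : t ^ 6 = n + 1) (v : Fin (n + 1)) (b : Bool) {T : Set (Fin (n + 1) → Bool)}
    (hT : ∀ σ, σ v = b → σ ∈ T) :
    aa k n ≤ life k (n + 1) T + k * 2 ^ k * (1 + 2 ^ (k + 2)) * 2 ^ (k + 2) * t ^ 2 := by
  have : Nonempty (Fin n) := ⟨⟨0, hn⟩⟩
  have ht0 : 0 < t := by linarith
  have hn' : (0:ℝ) ≤ n := by positivity
  have h := life_cmp (super_cl v.succAbove k) (super_cl id k) (green_succAbove k hn v)
    (life_green k (n := n + 1) (by omega))
    (a := 1 + k * 2 ^ k * ((1 / t ^ 6) / (1 / t ^ 2))) (b := k * 2 ^ k * (1 / t ^ 6) * (1 / t ^ 2) ^ 2)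
    (H := 2 ^ (k + 2) * (n + 1 : ℕ)) (by positivity)
    (fun S _ => by
      rw [kill_cl, kill_cl]
      refine le_trans ?_ (add_pow_le_aux2 (xf_nonneg _ _) (by positivity) ?_ (by positivity) ?_ hk)
      · refine pow_le_pow_left₀ (xf_nonneg _ _) ?_ _
        have h1 := xf_succ hn v S
        have h2 := z_le_one S v
        have h3 := xf_nonneg v.succAbove S
        rw [ht, ← sub_le_iff_le_add', le_div_iff₀ (by linarith)]
        nlinarith
      · exact one_div_le_one_div_of_le (by positivity) (pow_le_pow_right₀ ht1 (by norm_num))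
      · rw [div_le_one (by positivity)]; exact one_le_pow₀ ht1)
    (green_le_H (by omega) _ k (green_succAbove k hn v)) T
  rw [image_succAbove v b hT] at h
  have h1 : (1 + k * 2 ^ k * ((1 / t ^ 6) / (1 / t ^ 2)) + k * 2 ^ k * (1 / t ^ 6) * (1 / t ^ 2) ^ 2 *
      (2 ^ (k + 2) * (n + 1 : ℕ))) = 1 + k * 2 ^ k * (1 + 2 ^ (k + 2)) / t ^ 4 := by
    push_cast
    rw [← ht]
    field_simp
    ring
  rw [h1] at h
  have h3 := life_le k (n := n + 1) (by omega) T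
  push_cast at h3
  rw [← ht] at h3
  have h4 := mul_le_mul_of_nonneg_left h3
    (show 0 ≤ k * 2 ^ k * (1 + 2 ^ (k + 2)) / t ^ 4 by positivity)
  have h5 : k * 2 ^ k * (1 + 2 ^ (k + 2)) / t ^ 4 * (2 ^ (k + 2) * t ^ 6) =
      k * 2 ^ k * (1 + 2 ^ (k + 2)) * 2 ^ (k + 2) * t ^ 2 := by field_simp
  unfold aa
  linarith

/-- the constant -/
noncomputable def C1 (k : ℕ) : ℝ := k * 2 ^ k * (2 + 2 ^ (k + 2)) * 2 ^ (k + 2)

lemma exists_W_sat {k : ℕ} (hk : 3 ≤ k) {n : ℕ} (hn : 1 ≤ n) {t : ℝ} (ht1 : 1 ≤ t)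
    (ht : t ^ 6 = n + 1) :
    ∃ W : Set (Fin (n + 1) → Bool) → ℝ, (∀ S, 0 ≤ W S) ∧
      (∀ S, S.Nonempty → op (cl id k) W S ≤ W S) ∧
      (∀ S, S.Nonempty → Vale.Agent.P170.V (cl id k) (life k (n + 1)) S ≤ W S) ∧
      W Set.univ ≤ 2 * 2 ^ (k + 2) * C1 k * t ^ 4 := by
  have ht0 : 0 < t := by linarith
  have hg := life_green k (n := n + 1) (by omega)
  obtain ⟨W, h0, h1, h2, h3⟩ := exists_W (super_cl id k) hg (green_loss hg (cl id 1))
    (K := 2 ^ (k + 2) * t ^ 2) (fun S _ => by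
      have h4 := life_mul_kill_le (super_cl id k) hg S
      rw [kill_cl] at h4
      rw [kill_cl, kill_cl, pow_one]
      have hx0 := xf_nonneg (id : Fin (n + 1) → Fin (n + 1)) S
      have hx1 := xf_le_one (id : Fin (n + 1) → Fin (n + 1)) S
      set x := xf (id : Fin (n + 1) → Fin (n + 1)) S
      rcases le_total (x * t ^ 2) 1 with h | h
      · have h5 := life_le k (n := n + 1) (by omega) S
        push_cast at h5
        rw [← ht] at h5
        have h6 : x ^ k ≤ x ^ 3 := pow_le_pow_of_le_one hx0 hx1 hk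
        have h7 : (x * t ^ 2) ^ 2 ≤ 1 := pow_le_one₀ (by positivity) h
        calc x ^ k * life k (n + 1) S ≤ x ^ 3 * (2 ^ (k + 2) * t ^ 6) :=
              mul_le_mul h6 h5 (life_nonneg k (by omega) S) (by positivity)
          _ = (2 ^ (k + 2) * t ^ 2 * x) * (x * t ^ 2) ^ 2 := by ring
          _ ≤ _ := mul_le_of_le_one_right (by positivity) h7
      · have h5 : (1:ℝ) ≤ 2 ^ (k + 2) := one_le_pow₀ one_le_two
        nlinarith)
  refine ⟨W, h0, h1, h2, (h3 Set.univ).trans ?_⟩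
  have hD : (life k (n + 1) - op (cl id 1) (life k (n + 1))) Set.univ ≤ C1 k * t ^ 2 := by
    have h4 : aa k (n + 1) - C1 k * t ^ 2 ≤ op (cl id 1) (life k (n + 1)) Set.univ := by
      rw [op_apply]
      refine le_expect univ_nonempty fun c _ => ?_
      have h5 := aa_le_unit hk hn ht1 ht (c 0).1 (c 0).2 (T := Set.univ ∩ cl id 1 c)
        (fun σ hσ => ⟨trivial, 0, hσ⟩)
      have h6 := aa_succ_le k hn
      have h7 : (1:ℝ) ≤ t ^ 2 := one_le_pow₀ ht1
      have h8 := mul_le_mul_of_nonneg_left h7 (show (0:ℝ) ≤ k * 2 ^ k * 2 ^ (k + 2) by positivity)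
      unfold C1
      nlinarith
    simp only [Pi.sub_apply]
    unfold aa at h4
    linarith
  calc _ ≤ 2 * (2 ^ (k + 2) * t ^ 2) * (C1 k * t ^ 2) :=
        mul_le_mul_of_nonneg_left hD (by positivity)
    _ = _ := by ring

/-- survival probability of the lazy chain -/
noncomputable def qq (k n : ℕ) (l : ℝ) (m : ℕ) : ℝ :=
  (lazy (cl (id : Fin n → Fin n) k) l ^ m) u Set.univ

lemma tails {k : ℕ} (hk : 3 ≤ k) {n : ℕ} (hn : 2 ≤ n) {t : ℝ} (ht1 : 1 ≤ t) (ht : t ^ 6 = n) :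
    (∀ (l : ℝ) (m : ℕ), 0 ≤ l → l ≤ 1 → l * m ≤ aa k n →
      (1 - qq k n l m) * (aa k n - l * m) ^ 2 ≤ m * (2 * 2 ^ (k + 2) * C1 k * t ^ 4)) ∧
    (∀ m : ℕ, aa k n ≤ m →
      qq k n 1 m * (m - aa k n) ^ 2 ≤ m * (2 * 2 ^ (k + 2) * C1 k * t ^ 4)) := by
  obtain ⟨n, rfl⟩ : ∃ j, n = j + 1 := ⟨n - 1, by omega⟩
  obtain ⟨W, h0, h1, h2, h3⟩ := exists_W_sat hk (n := n) (by omega) ht1 (by exact_mod_cast ht)
  have hg := life_green k (n := n + 1) (by omega)
  constructor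
  · intro l m hl0 hl1 hm
    have := cheb_lower hg h0 h1 h2 hl0 hl1 m (-aa k (n + 1)) Set.univ (by linarith)
    have h4 := mul_le_mul_of_nonneg_left h3 (Nat.cast_nonneg (α := ℝ) m)
    unfold qq
    unfold aa at *
    nlinarith
  · intro m hm
    have := cheb_upper hg (life_nonneg k (by omega)) h0 h1 h2 m (-aa k (n + 1)) Set.univ
      (by linarith)
    have h4 := mul_le_mul_of_nonneg_left h3 (Nat.cast_nonneg (α := ℝ) m)
    unfold qq
    rw [lazy_one]
    unfold aa at *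
    nlinarith

lemma aa_succ_ge {k : ℕ} (hk : 3 ≤ k) {n : ℕ} (hn : 1 ≤ n) {t : ℝ} (ht1 : 1 ≤ t)
    (ht : t ^ 6 = n + 1) : aa k n - C1 k * t ^ 2 ≤ aa k (n + 1) := by
  have h := aa_le_unit hk hn ht1 ht 0 true (T := Set.univ) (fun _ _ => trivial)
  have h8 : (0:ℝ) ≤ k * 2 ^ k * 2 ^ (k + 2) * t ^ 2 := by positivity
  unfold C1
  unfold aa at *
  nlinarith

/-- interpolation -/
lemma interp (k : ℕ) {n₁ n₂ : ℕ} (h₁ : 1 ≤ n₁) (h₂ : 1 ≤ n₂) (m : ℕ) :
    qq k n₁ (n₁ / (n₁ + n₂)) m + qq k n₂ (n₂ / (n₁ + n₂)) m - 1 ≤ qq k (n₁ + n₂) 1 m := by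
  have : Nonempty (Fin n₁) := ⟨⟨0, h₁⟩⟩
  have : Nonempty (Fin n₂) := ⟨⟨0, h₂⟩⟩
  have : Nonempty (Fin (n₁ + n₂)) := ⟨⟨0, by omega⟩⟩
  have h₁' : (1:ℝ) ≤ n₁ := by exact_mod_cast h₁
  have h₂' : (1:ℝ) ≤ n₂ := by exact_mod_cast h₂
  set l : ℝ := n₁ / (n₁ + n₂) with hl
  have hl2 : (n₂ : ℝ) / (n₁ + n₂) = 1 - l := by rw [hl]; field_simp; ring
  have hl0 : 0 ≤ l := by positivity
  have hl1 : 0 ≤ 1 - l := by rw [← hl2]; positivity
  have h := mix_bound (fun σ : Fin (n₁ + n₂) → Bool => σ ∘ Fin.castAdd n₂)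
    (fun σ : Fin (n₁ + n₂) → Bool => σ ∘ Fin.natAdd n₁)
    (fun a b => ⟨Fin.append a b, by funext i; simp, by funext i; simp⟩)
    (cl id k) (cl id k) hl0 (by linarith) m Set.univ Set.univ
  rw [hl2]
  refine h.trans ?_
  simp only [Set.preimage_univ, Set.inter_self]
  unfold qq
  rw [lazy_one]
  have hR : Mono (l • op (cl (Fin.castAdd n₂ : Fin n₁ → Fin (n₁ + n₂)) k) +
      (1 - l) • op (cl (Fin.natAdd n₁ : Fin n₂ → Fin (n₁ + n₂)) k)) := by
    intro f g hfg S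
    have e1 := mul_le_mul_of_nonneg_left (mono_op (cl (Fin.castAdd n₂ : Fin n₁ → Fin (n₁ + n₂)) k)
      f g hfg S) hl0
    have e2 := mul_le_mul_of_nonneg_left (mono_op (cl (Fin.natAdd n₁ : Fin n₂ → Fin (n₁ + n₂)) k)
      f g hfg S) hl1
    simp only [LinearMap.add_apply, LinearMap.smul_apply, Pi.add_apply, Pi.smul_apply, smul_eq_mul]
    linarith
  refine pow_le_pow_of_comm (mono_op _) hR
    (((op_comm _ _).smul_right l).add_right ((op_comm _ _).smul_right (1 - l))) ?_ m Set.univ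
  intro S
  have e0 := kill_cl (id : Fin (n₁ + n₂) → Fin (n₁ + n₂)) k S
  have e1 := kill_cl (Fin.castAdd n₂ : Fin n₁ → Fin (n₁ + n₂)) k S
  have e2 := kill_cl (Fin.natAdd n₁ : Fin n₂ → Fin (n₁ + n₂)) k S
  have e3 : xf id S = l • xf (Fin.castAdd n₂) S + (1 - l) • xf (Fin.natAdd n₁) S := by
    have := xf_add n₁ n₂ S
    rw [← hl2, hl, smul_eq_mul, smul_eq_mul]
    field_simp
    linarith
  have e4 := (convexOn_pow (𝕜 := ℝ) k).2 (xf_nonneg (Fin.castAdd n₂) S) (xf_nonneg (Fin.natAdd n₁) S)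
    hl0 hl1 (by ring)
  rw [← e3] at e4
  unfold kill at e0 e1 e2
  simp only [LinearMap.add_apply, LinearMap.smul_apply, Pi.add_apply, Pi.smul_apply,
    smul_eq_mul] at e4 ⊢
  rw [← e0, ← e1, ← e2] at e4
  linarith

end Vale.Agent.P170
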