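import Vale.Agent.P170.Limit
import Vale.Agent.P170.Defs

/-! Transfer from independent literals to proper clauses. -/

namespace Vale.Agent.P170

open Finset BigOperators Filter Topology

noncomputable instance properFintype (k n : ℕ) : Fintype (ProperClause k n) := by
  unfold ProperClause
  exact Fintype.ofFinite _

/-- assignments satisfying a proper clause -/
def pcl (k n : ℕ) (C : ProperClause k n) : Set (Fin n → Bool) := {σ | ∃ l ∈ C.1, σ l.1 = l.2}

lemma satProb_eq (k n m : ℕ) : satProb k n m = (op (pcl k n) ^ m) u Set.univ := by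
  classical
  rw [op_pow_apply, Fintype.expect_eq_sum_div_card, satProb, Nat.card_eq_fintype_card,
    Nat.card_eq_fintype_card, Fintype.card_subtype]
  congr 1
  rw [card_filter]
  push_cast
  refine sum_congr rfl fun F _ => ?_
  unfold u
  congr 1
  simp only [Satisfiable, Set.univ_inter, eq_iff_iff]
  constructor
  · rintro ⟨σ, hσ⟩
    exact ⟨σ, Set.mem_iInter.2 hσ⟩
  · rintro ⟨σ, hσ⟩
    exact ⟨σ, Set.mem_iInter.1 hσ⟩

/-- ordered proper clauses -/
def OP (k n : ℕ) : Finset (Fin k → Fin n × Bool) :=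
  univ.filter fun c => Function.Injective fun i => (c i).1

lemma fiber_card {k n : ℕ} (C : ProperClause k n) :
    ((OP k n).filter fun c => univ.image c = C.1).card = k.factorial := by
  classical
  have h : Fintype.card (Fin k ↪ C.1) = k.factorial := by
    rw [Fintype.card_embedding_eq, Fintype.card_coe, C.2.1, Fintype.card_fin, Nat.descFactorial_self]
  rw [← h, ← card_univ]
  symm
  refine card_bij (fun e _ => fun i => (e i).1) ?_ ?_ ?_
  · intro e _
    have hinj : Function.Injective fun i => (e i).1 := Subtype.val_injective.comp e.injective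
    simp only [OP, mem_filter, mem_univ, true_and]
    refine ⟨fun i j hij => hinj (C.2.2 _ (e i).2 _ (e j).2 hij), ?_⟩
    apply eq_of_subset_of_card_le
    · intro x hx
      obtain ⟨i, _, rfl⟩ := mem_image.1 hx
      exact (e i).2
    · rw [card_image_of_injective _ hinj, C.2.1]
      simp
  · intro e _ e' _ hee
    ext i : 2
    exact congrFun hee i
  · intro c hc
    simp only [OP, mem_filter, mem_univ, true_and] at hc
    refine ⟨⟨fun i => ⟨c i, hc.2 ▸ mem_image_of_mem c (mem_univ i)⟩, fun i j hij => ?_⟩,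
      mem_univ _, rfl⟩
    exact hc.1 (congrArg (fun x => x.1.1) hij)

lemma sum_OP {k n : ℕ} (φ : Finset (Fin n × Bool) → ℝ) :
    ∑ c ∈ OP k n, φ (univ.image c) = k.factorial * ∑ C : ProperClause k n, φ C.1 := by
  classical
  have h1 : ∀ c ∈ OP k n, φ (univ.image c) =
      ∑ C : ProperClause k n, if univ.image c = C.1 then φ C.1 else 0 := by
    intro c hc
    simp only [OP, mem_filter, mem_univ, true_and] at hc
    have hinj : Function.Injective c := Function.Injective.of_comp (f := Prod.fst) hc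
    let C : ProperClause k n := ⟨univ.image c, by rw [card_image_of_injective _ hinj]; simp, by
      intro l hl l' hl' h
      obtain ⟨i, _, rfl⟩ := mem_image.1 hl
      obtain ⟨j, _, rfl⟩ := mem_image.1 hl'
      rw [hc h]⟩
    rw [sum_eq_single C]
    · simp [C]
    · intro D _ hD
      rw [if_neg]
      intro h
      exact hD (Subtype.ext h.symm)
    · simp
  rw [sum_congr rfl h1, sum_comm, mul_sum]
  refine sum_congr rfl fun C _ => ?_
  rw [← sum_filter, sum_const, fiber_card, nsmul_eq_mul]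

lemma card_OP (k n : ℕ) : n.descFactorial k * 2 ^ k ≤ (OP k n).card := by
  have h : Fintype.card ((Fin k ↪ Fin n) × (Fin k → Bool)) = n.descFactorial k * 2 ^ k := by
    simp
  rw [← h, ← card_univ]
  refine card_le_card_of_injOn (fun p i => (p.1 i, p.2 i)) ?_ ?_
  · intro p _
    simp only [OP, coe_filter, mem_univ, true_and, Set.mem_ofPred_eq]
    exact p.1.injective
  · intro p _ q _ hpq
    ext i
    · exact congrArg (fun x => (x.1 : ℕ)) (congrFun hpq i)
    · exact congrArg Prod.snd (congrFun hpq i)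

lemma card_OP' {k n : ℕ} (hkn : k ≤ n) : ((n:ℝ) - k) ^ k * 2 ^ k ≤ (OP k n).card := by
  have h1 := card_OP k n
  have h2 := Nat.pow_sub_le_descFactorial n k
  have h3 : (n - k) ^ k ≤ (n + 1 - k) ^ k := Nat.pow_le_pow_left (by omega) _
  have h4 : (n - k) ^ k * 2 ^ k ≤ (OP k n).card :=
    (Nat.mul_le_mul_right _ (h3.trans h2)).trans h1
  rw [← Nat.cast_sub hkn]
  exact_mod_cast h4

lemma proper_nonempty {k n : ℕ} (hkn : k < n) : Nonempty (ProperClause k n) := by
  have h1 := card_OP' hkn.le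
  have h2 := sum_OP (k := k) (n := n) (fun _ => 1)
  have hk : (k:ℝ) < n := by exact_mod_cast hkn
  have h3 : (0:ℝ) < ((n:ℝ) - k) ^ k * 2 ^ k := by
    have : 0 < (n:ℝ) - k := by linarith
    positivity
  by_contra hcon
  rw [not_nonempty_iff] at hcon
  simp only [sum_const, nsmul_eq_mul, mul_one, univ_eq_empty, card_empty, zero_smul,
    mul_zero] at h2
  linarith

lemma op_ge {k n : ℕ} (hkn : k < n) (f : Set (Fin n → Bool) → ℝ) (hf : 0 ≤ f) :
    ((1 - (k:ℝ) / n) ^ k) • op (pcl k n) f ≤ op (cl (id : Fin n → Fin n) k) f := by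
  intro S
  have := proper_nonempty hkn
  have hn : (0:ℝ) < n := by exact_mod_cast (show 0 < n by omega)
  have h1 := card_OP' hkn.le
  have h2 := sum_OP (k := k) (n := n) (fun _ => 1)
  simp only [sum_const, nsmul_eq_mul, mul_one, card_univ] at h2
  have h3 := sum_OP (k := k) (n := n) (fun C => f (S ∩ {σ | ∃ l ∈ C, σ l.1 = l.2}))
  have h4 : ∑ c ∈ OP k n, f (S ∩ {σ | ∃ l ∈ univ.image c, σ l.1 = l.2}) ≤
      ∑ c, f (S ∩ cl id k c) := by
    rw [sum_congr rfl (g := fun c => f (S ∩ cl id k c))]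
    · exact sum_le_sum_of_subset_of_nonneg (subset_univ _) fun _ _ _ => hf _
    · intro c _
      congr 2
      ext σ
      simp [cl]
  have h5 := Fintype.card_mul_expect (fun C : ProperClause k n => f (S ∩ pcl k n C))
  have h6 : 0 ≤ op (pcl k n) f S := expect_nonneg fun _ _ => hf _
  simp only [Pi.smul_apply, smul_eq_mul]
  rw [op_apply (cl id k), Fintype.expect_eq_sum_div_card, le_div_iff₀ (by simp; positivity)]
  have h7 : (Fintype.card (Fin k → Fin n × Bool) : ℝ) = n ^ k * 2 ^ k := by simp [mul_pow]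
  have h8 : (1 - (k:ℝ) / n) ^ k * op (pcl k n) f S * (n ^ k * 2 ^ k) =
      ((n:ℝ) - k) ^ k * 2 ^ k * op (pcl k n) f S := by
    have : ((n:ℝ) - k) = (1 - (k:ℝ) / n) * n := by field_simp
    rw [this, mul_pow]; ring
  rw [h7, h8]
  refine (mul_le_mul_of_nonneg_right h1 h6).trans ?_
  rw [h2, mul_assoc, op_apply, h5]
  exact le_trans (le_of_eq h3.symm) h4

lemma beta_ge {k n m : ℕ} {c : ℝ} (hn : 1 ≤ n) (hkn : 2 * k ≤ n) (hm : (m:ℝ) ≤ c * n) :
    Real.exp (-(2 * k ^ 2 * c)) ≤ ((1 - (k:ℝ) / n) ^ k) ^ m := by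
  have hn' : (0:ℝ) < n := by exact_mod_cast hn
  have hkn' : 2 * (k:ℝ) ≤ n := by exact_mod_cast hkn
  have hy0 : 0 ≤ (k:ℝ) / n := by positivity
  have hy1 : (k:ℝ) / n ≤ 1 / 2 := by rw [div_le_iff₀ hn']; linarith
  have h1 : Real.exp (-(2 * ((k:ℝ) / n))) ≤ 1 - (k:ℝ) / n := by
    rw [Real.exp_neg, inv_le_iff_one_le_mul₀ (Real.exp_pos _)]
    have := Real.add_one_le_exp (2 * ((k:ℝ) / n))
    nlinarith
  calc Real.exp (-(2 * k ^ 2 * c)) ≤ Real.exp (((k * m : ℕ) : ℝ) * -(2 * ((k:ℝ) / n))) := by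
        apply Real.exp_le_exp.2
        have h2 : (m:ℝ) / n ≤ c := by rw [div_le_iff₀ hn']; exact hm
        have h3 : ((k * m : ℕ) : ℝ) * -(2 * ((k:ℝ) / n)) = -(2 * k ^ 2 * (m / n)) := by
          push_cast; ring
        rw [h3]
        have := mul_le_mul_of_nonneg_left h2 (show (0:ℝ) ≤ 2 * k ^ 2 by positivity)
        linarith
    _ = Real.exp (-(2 * ((k:ℝ) / n))) ^ (k * m) := Real.exp_nat_mul _ _
    _ ≤ (1 - (k:ℝ) / n) ^ (k * m) := pow_le_pow_left₀ (Real.exp_pos _).le h1 _
    _ = _ := pow_mul _ _ _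

lemma transfer {k n m : ℕ} {c : ℝ} (hk : 1 ≤ k) (hkn : 2 * k ≤ n) (hm : (m:ℝ) ≤ c * n) :
    (0 ≤ satProb k n m ∧ satProb k n m ≤ Real.exp (2 * k ^ 2 * c) * qq k n 1 m) ∧
    (0 ≤ 1 - satProb k n m ∧ 1 - satProb k n m ≤ Real.exp (2 * k ^ 2 * c) * (1 - qq k n 1 m)) := by
  have := proper_nonempty (k := k) (n := n) (by omega)
  have : Nonempty (Fin n) := ⟨⟨0, by omega⟩⟩
  have hn' : (0:ℝ) < n := by exact_mod_cast (show 0 < n by omega)
  have hkn' : (k:ℝ) ≤ n := by exact_mod_cast (show k ≤ n by omega)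
  have hβ0 : 0 ≤ (1 - (k:ℝ) / n) ^ k := pow_nonneg (by rw [sub_nonneg, div_le_one hn']; exact hkn') _
  have hβ := beta_ge (k := k) (n := n) (by omega) hkn hm
  have key : ∀ f : Set (Fin n → Bool) → ℝ, 0 ≤ f → 0 ≤ (op (pcl k n) ^ m) f Set.univ ∧
      (op (pcl k n) ^ m) f Set.univ ≤
        Real.exp (2 * k ^ 2 * c) * (op (cl (id : Fin n → Fin n) k) ^ m) f Set.univ := by
    intro f hf
    have h0 : 0 ≤ (op (pcl k n) ^ m) f Set.univ := by
      simpa using (mono_op (pcl k n)).pow m _ _ hf Set.univ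
    have h1 := smul_pow_le (mono_op _) (mono_op _) hβ0 (op_ge (k := k) (n := n) (by omega)) hf m
      Set.univ
    simp only [Pi.smul_apply, smul_eq_mul] at h1
    refine ⟨h0, ?_⟩
    have h2 := (mul_le_mul_of_nonneg_right hβ h0).trans h1
    rwa [Real.exp_neg, inv_mul_le_iff₀ (Real.exp_pos _)] at h2
  have e1 := key u u_nonneg
  have e2 := key ((fun _ => 1) - u) (fun S => by simpa using u_le_one S)
  rw [map_sub, map_sub, ← lazy_one, ← lazy_one, lazy_pow_const, lazy_pow_const, lazy_one] at e2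
  rw [satProb_eq]
  unfold qq
  rw [← lazy_one (cl id k)] at e1
  exact ⟨e1, e2⟩

theorem main {k : ℕ} (hk : 3 ≤ k) : ∃ α : ℝ, 0 < α ∧
    (∀ c : ℝ, 0 ≤ c → c < α → Tendsto (fun n : ℕ => satProb k n ⌊c * n⌋₊) atTop (𝓝 1)) ∧
    (∀ c : ℝ, α < c → Tendsto (fun n : ℕ => satProb k n ⌊c * n⌋₊) atTop (𝓝 0)) := by
  obtain ⟨α, h0, h1, h2⟩ := main_iid hk
  refine ⟨α, h0, fun c hc0 hc => ?_, fun c hc => ?_⟩
  · have : Tendsto (fun n : ℕ => 1 - satProb k n ⌊c * n⌋₊) atTop (𝓝 0) := by
      have h3 := (h1 c hc0 hc).const_mul (Real.exp (2 * k ^ 2 * c))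
      rw [mul_zero] at h3
      refine squeeze_zero' ?_ ?_ h3 <;>
      · filter_upwards [eventually_ge_atTop (2 * k)] with n hn
        have := (transfer (by omega) hn (Nat.floor_le (show 0 ≤ c * n by positivity))).2
        first | exact this.1 | exact this.2
    simpa using this.const_sub 1
  · have hc0 : 0 ≤ c := by linarith
    have h3 := (h2 c hc).const_mul (Real.exp (2 * k ^ 2 * c))
    rw [mul_zero] at h3
    refine squeeze_zero' ?_ ?_ h3 <;>
    · filter_upwards [eventually_ge_atTop (2 * k)] with n hn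
      have := (transfer (by omega) hn (Nat.floor_le (show 0 ≤ c * n by positivity))).1
      first | exact this.1 | exact this.2

end Vale.Agent.P170
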